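import Vale.Agent.P254.H657.E2f
import Vale.Agent.P254.H54.E3
import Vale.Agent.P254.H54.E4
import Vale.Agent.P254.H54.E5
import Vale.Agent.P254.H325.E1
import Vale.Agent.P254.H325.E7
import Vale.Agent.P254.H934.E6

/-! P254: assembly of the equality case (helper657). -/

open MeasureTheory Set Matrix Filter Topology

namespace Vale.Agent.P254.Eq657

open R304
open L (Mat Ten NN frT Vec)

variable {n : ℕ} {C : Set (Fin n → ℝ)} {c : Fin n → ℝ} {α b : ℝ}

lemma pg_add {p q : (Fin n → ℝ) → ℝ} (hp : PolyGrowth p) (hq : PolyGrowth q) :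
    PolyGrowth (fun x => p x + q x) := by
  have h := pg_sub hp (pg_cmul hq (-1))
  have e : (fun x => p x + q x) = fun x => p x - -1 * q x := by
    ext x
    ring
  rw [e]
  exact h

lemma pg_sum {ι : Type*} (S : Finset ι) {f : ι → (Fin n → ℝ) → ℝ}
    (hf : ∀ i ∈ S, PolyGrowth (f i)) : PolyGrowth (fun x => ∑ i ∈ S, f i x) := by
  classical
  induction S using Finset.induction_on with
  | empty =>
    have h := pg_cmul (pg_one (n := n)) 0
    simpa using h
  | insert i S hi ih =>
    simp only [Finset.sum_insert hi]
    exact pg_add (hf i (Finset.mem_insert_self i S))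
      (ih fun j hj => hf j (Finset.mem_insert_of_mem hj))

lemma NN_rank1 (e : Fin n → ℝ) (T : Ten n) :
    NN (Matrix.of fun i j => e i * e j) T T = (∑ i, ∑ j, ∑ k, e i * e j * e k * T i j k) ^ 2 := by
  unfold NN L.N3
  rw [sq, Finset.sum_mul]
  refine Finset.sum_congr rfl fun a _ => ?_
  rw [Finset.sum_mul]
  refine Finset.sum_congr rfl fun b _ => ?_
  rw [Finset.sum_mul]
  refine Finset.sum_congr rfl fun c _ => ?_
  simp only [Finset.mul_sum, of_apply]
  exact Finset.sum_congr rfl fun a' _ => Finset.sum_congr rfl fun b' _ =>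
    Finset.sum_congr rfl fun c' _ => by ring

lemma psd_rank1 (e : Fin n → ℝ) : (Matrix.of fun i j => e i * e j : Mat n).PosSemidef := by
  have := Matrix.posSemidef_vecMulVec_self_star e
  have e1 : (Matrix.of fun i j => e i * e j : Mat n) = vecMulVec e (star e) := by
    ext i j
    simp [vecMulVec]
  rw [e1]
  exact this

lemma cube_rank1 {e : Fin n → ℝ} (he : e ⬝ᵥ e = 1) :
    ((Matrix.of fun i j => e i * e j : Mat n) ^ 3).trace = 1 := by
  have h1 : (Matrix.of fun i j => e i * e j : Mat n) * (Matrix.of fun i j => e i * e j) =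
      Matrix.of fun i j => e i * e j := by
    ext i j
    rw [Matrix.mul_apply]
    simp only [of_apply]
    have : ∑ x, e i * e x * (e x * e j) = e i * e j * (e ⬝ᵥ e) := by
      unfold dotProduct
      rw [Finset.mul_sum]
      exact Finset.sum_congr rfl fun x _ => by ring
    rw [this, he, mul_one]
  rw [pow_three, h1, h1]
  unfold Matrix.trace dotProduct at *
  simpa using he

/-- the normalised equality case -/
theorem norm_case (hP : LimP n) (hZ : LimZ n) (h5 : StmtE5) (h : Adm C c α b) (hN : Norm C c) :
    ∃ (A : Mat n) (v : Fin n → ℝ), A.det ≠ 0 ∧ C = {x | ∀ i, 0 ≤ (A *ᵥ x + v) i} := by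
  rcases Nat.eq_zero_or_pos n with hn | hn
  · subst hn
    refine ⟨1, 0, by simp, ?_⟩
    obtain ⟨x, hx⟩ := h.int
    ext y
    simp only [mem_ofPred_eq, IsEmpty.forall_iff, iff_true]
    rw [Subsingleton.elim y x]
    exact interior_subset hx
  · have hI := hN.iso
    have hT : T3 (limDens 0 c C) = tt C c := T3_zero hI
    obtain ⟨O, hO, hdiag⟩ := H54.E3 n (tt C c) tt_symm
      (fun i j => slices_commute hn hP hZ h hI hN.dd i j)
      (fun i j => by
        have h1 := hM hn hP hZ h hI hN.dd i j
        rw [← h1]
        unfold Matrix.trace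
        simp only [Matrix.diag_apply, Matrix.mul_apply, slice, of_apply]
        refine Finset.sum_congr rfl fun a _ => Finset.sum_congr rfl fun k _ => ?_
        rw [tt_comm12 i a k, tt_comm23 a i k, tt_comm12 j k a, tt_comm23 k j a, tt_comm12 k a j])
      (fun e he => by
        have h1 := pineq0 hn hP h hI (psd_rank1 e)
        rw [NN_rank1, cube_rank1 he, mul_one] at h1
        exact h1)
    have hrow : ∀ i, (O i) ⬝ᵥ (O i) = 1 := by
      intro i
      have := congrFun (congrFun hO i) i
      rw [Matrix.mul_apply, Matrix.one_apply_eq] at this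
      exact this
    have hlin : ∀ i, E0 C c (fun x => O i ⬝ᵥ x) = 0 := by
      intro i
      have e : (fun x : Fin n → ℝ => O i ⬝ᵥ x) = fun x => ∑ j, O i j * x j := rfl
      rw [e, E0_sum h Finset.univ (fun j x => O i j * x j) fun j _ => pg_cmul (pg_coord j) _]
      refine Finset.sum_eq_zero fun j _ => ?_
      have : E0 C c (fun x => O i j * x j) = O i j * E0 C c fun x => x j := by
        unfold E0 Ef
        rw [← mul_div_assoc, ← integral_const_mul]
        congr 1
        exact integral_congr_ae (Eventually.of_forall fun x => by ring)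
      rw [this, hI.m1, mul_zero]
    have hcm : ∀ (r : ℝ) (p : (Fin n → ℝ) → ℝ), E0 C c (fun x => r * p x) = r * E0 C c p := by
      intro r p
      unfold E0 Ef
      rw [← mul_div_assoc, ← integral_const_mul]
      congr 1
      exact integral_congr_ae (Eventually.of_forall fun x => by ring)
    have hsq : ∀ i, E0 C c (fun x => (O i ⬝ᵥ x) ^ 2) = 1 := by
      intro i
      have e : (fun x : Fin n → ℝ => (O i ⬝ᵥ x) ^ 2) =
          fun x => ∑ j, ∑ k, O i j * O i k * (x j * x k) := by
        ext x
        unfold dotProduct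
        rw [sq, Finset.sum_mul_sum]
        exact Finset.sum_congr rfl fun j _ => Finset.sum_congr rfl fun k _ => by ring
      have hpg : ∀ j k, PolyGrowth fun x : Fin n → ℝ => O i j * O i k * (x j * x k) :=
        fun j k => pg_cmul (pg_coord2 j k) _
      rw [e, E0_sum h Finset.univ (fun j x => ∑ k, O i j * O i k * (x j * x k)) fun j _ => ?_]
      · have e1 : ∀ j, E0 C c (fun x => ∑ k, O i j * O i k * (x j * x k)) = O i j * O i j := by
          intro j
          rw [E0_sum h Finset.univ (fun k x => O i j * O i k * (x j * x k)) fun k _ => hpg j k]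
          simp only [hcm, hI.m2]
          simp
        simp only [e1]
        exact hrow i
      · exact pg_sum Finset.univ fun k _ => hpg j k
    have hcu : ∀ i, E0 C c (fun x => (O i ⬝ᵥ x) ^ 3) = 2 := by
      intro i
      have e : (fun x : Fin n → ℝ => (O i ⬝ᵥ x) ^ 3) =
          fun x => ∑ j, ∑ k, ∑ l, O i j * O i k * O i l * (x j * x k * x l) := by
        ext x
        unfold dotProduct
        rw [pow_succ, sq, Finset.sum_mul_sum, Finset.sum_mul]
        refine Finset.sum_congr rfl fun j _ => ?_
        rw [Finset.sum_mul]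
        refine Finset.sum_congr rfl fun k _ => ?_
        rw [Finset.mul_sum]
        exact Finset.sum_congr rfl fun l _ => by ring
      have hpg : ∀ j k l, PolyGrowth fun x : Fin n → ℝ =>
          O i j * O i k * O i l * (x j * x k * x l) := fun j k l => pg_cmul (pg3 j k l) _
      rw [e, E0_sum h Finset.univ _ fun j _ => pg_sum Finset.univ fun k _ =>
        pg_sum Finset.univ fun l _ => hpg j k l]
      have e1 : ∀ j, E0 C c (fun x => ∑ k, ∑ l, O i j * O i k * O i l * (x j * x k * x l)) =
          ∑ k, ∑ l, O i j * O i k * O i l * tt C c j k l := by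
        intro j
        rw [E0_sum h Finset.univ _ fun k _ => pg_sum Finset.univ fun l _ => hpg j k l]
        refine Finset.sum_congr rfl fun k _ => ?_
        rw [E0_sum h Finset.univ _ fun l _ => hpg j k l]
        refine Finset.sum_congr rfl fun l _ => ?_
        rw [hcm]
        rfl
      simp only [e1]
      have h9 := hdiag i i i
      rw [if_pos ⟨rfl, rfl⟩] at h9
      exact h9
    have hC : C = {x | ∀ i, -1 ≤ (O *ᵥ x) i} := by
      refine h5 n C c α b h hN O hO fun x hx i => ?_
      exact H54.E4 n C c α b h (O i) (hlin i) (hsq i) (hcu i) x hx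
    refine ⟨O, fun _ => 1, ?_, ?_⟩
    · intro h0
      have := congrArg Matrix.det hO
      rw [Matrix.det_mul, h0, zero_mul, Matrix.det_one] at this
      exact zero_ne_one this
    · conv_lhs => rw [hC]
      ext x
      simp only [mem_ofPred_eq, Pi.add_apply]
      exact forall_congr' fun i => by constructor <;> intro hx <;> linarith

/-- **the equality case** -/
theorem stmtEq_of (hP : ∀ n, LimP n) (hZ : ∀ n, LimZ n) : StmtEq :=
  Eq934.E6 fun n _ _ _ _ h hN => norm_case (hP n) (hZ n) H54.E5 h hN

/-- the equality case for bodies, from the output of the sharp theory -/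
theorem isSimplex_of_eq (hP : SmallP) (hZ : SmallZ) (n : ℕ) (K S : Set (Fin n → ℝ)) (hn : 1 ≤ n)
    (hK : IsConvexBody K) (hS : IsSimplex S) (h : isoConst K = isoConst S) : IsSimplex K :=
  Eq325.stmtE7 (stmtEq_of (Eq325.stmtE1.1 hP) (Eq325.stmtE1.2 hZ)) n K S hn hK hS h

end Vale.Agent.P254.Eq657
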