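import Vale.Agent.P254.H657.Iface

/-! P254, equality case, block E2, part a: moments of the tilts `(s²/n · 1, c + s e_a)` and their
2-jets at `s = 0`. -/

open MeasureTheory Set Matrix Filter Topology Metric

namespace Vale.Agent.P254.Eq657

open R304
open L (Mat Ten NN frT Vec J1 J2)

variable {n : ℕ} {C : Set (Fin n → ℝ)} {c : Fin n → ℝ} {α b : ℝ}

/-- exponent added by the tilt -/
noncomputable def wt (a : Fin n) (s : ℝ) (x : Fin n → ℝ) : ℝ := s * x a - s ^ 2 / (2 * n) * (x ⬝ᵥ x)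

/-- the tilted density -/
noncomputable def fs (C : Set (Fin n → ℝ)) (c : Fin n → ℝ) (a : Fin n) (s : ℝ) :
    (Fin n → ℝ) → ℝ :=
  limDens ((s ^ 2 / n) • (1 : Mat n)) (c + s • (Pi.single a 1 : Fin n → ℝ)) C

lemma fs_eq (a : Fin n) (s : ℝ) :
    fs C c a s = C.indicator fun x => Real.exp (c ⬝ᵥ x + wt a s x) := by
  unfold fs limDens tilt wt
  congr 1
  ext x
  congr 1
  rw [add_dotProduct, smul_dotProduct, smul_mulVec, one_mulVec, dotProduct_smul, smul_eq_mul,
    smul_eq_mul, single_one_dotProduct]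
  ring

lemma fs_zero (a : Fin n) : fs C c a 0 = limDens 0 c C := by
  unfold fs
  simp

lemma abs_co_le (a : Fin n) (x : Fin n → ℝ) : |x a| ≤ ‖x‖ := by
  have := norm_le_pi_norm x a
  rwa [Real.norm_eq_abs] at this

lemma wt_le (a : Fin n) (s : ℝ) (x : Fin n → ℝ) : wt a s x ≤ |s| * ‖x‖ := by
  unfold wt
  have h1 : s * x a ≤ |s| * ‖x‖ := by
    refine (le_abs_self _).trans ?_
    rw [abs_mul]
    exact mul_le_mul_of_nonneg_left (abs_co_le a x) (abs_nonneg s)
  have h2 : 0 ≤ s ^ 2 / (2 * n) * (x ⬝ᵥ x) := mul_nonneg (by positivity) (dot_nonneg x)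
  linarith

/-- moments -/
noncomputable def Mo (C : Set (Fin n → ℝ)) (c : Fin n → ℝ) (a : Fin n) (p : (Fin n → ℝ) → ℝ)
    (s : ℝ) : ℝ := ∫ x, p x * fs C c a s x

lemma Mo_eq (hC : MeasurableSet C) (a : Fin n) (p : (Fin n → ℝ) → ℝ) (s : ℝ) :
    Mo C c a p s = ∫ x in C, p x * Real.exp (c ⬝ᵥ x + wt a s x) := by
  unfold Mo
  rw [fs_eq, ← integral_indicator hC]
  refine integral_congr_ae (Eventually.of_forall fun x => ?_)
  by_cases hx : x ∈ C
  · simp [hx]
  · simp [hx]

lemma continuous_expo (a : Fin n) (s : ℝ) :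
    Continuous fun x : Fin n → ℝ => Real.exp (c ⬝ᵥ x + wt a s x) := by
  unfold wt
  simp only [dotProduct]
  fun_prop

lemma pg_sq : PolyGrowth (fun x : Fin n → ℝ => x ⬝ᵥ x) := by
  have e : (fun x : Fin n → ℝ => x ⬝ᵥ x) = fun x => ∑ i, x i * x i := by
    ext x; rfl
  rw [e]
  refine ⟨?_, n, 2, fun x => ?_⟩
  · exact Continuous.aestronglyMeasurable (by fun_prop)
  · have h1 : 0 ≤ ‖x‖ := norm_nonneg x
    calc |∑ i, x i * x i| ≤ ∑ i, |x i * x i| := Finset.abs_sum_le_sum_abs _ _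
      _ ≤ ∑ _i : Fin n, (1 + ‖x‖) ^ 2 := by
          refine Finset.sum_le_sum fun i _ => ?_
          rw [abs_mul]
          have h2 := abs_co_le i x
          have h3 := abs_nonneg (x i)
          nlinarith
      _ = n * (1 + ‖x‖) ^ 2 := by simp

lemma pg_cmul {p : (Fin n → ℝ) → ℝ} (hp : PolyGrowth p) (r : ℝ) :
    PolyGrowth (fun x => r * p x) := by
  obtain ⟨hm, A, N, hA⟩ := hp
  refine ⟨hm.const_mul r, |r| * A, N, fun x => ?_⟩
  rw [abs_mul, mul_assoc]
  exact mul_le_mul_of_nonneg_left (hA x) (abs_nonneg r)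

lemma pg_sub {p q : (Fin n → ℝ) → ℝ} (hp : PolyGrowth p) (hq : PolyGrowth q) :
    PolyGrowth (fun x => p x - q x) := by
  obtain ⟨hm, A, N, hA⟩ := hp
  obtain ⟨hm', A', N', hA'⟩ := hq
  refine ⟨hm.sub hm', A + A', max N N', fun x => ?_⟩
  have h1 : (1 : ℝ) ≤ 1 + ‖x‖ := by linarith [norm_nonneg x]
  have hA0 : 0 ≤ A := by
    have := (abs_nonneg _).trans (hA 0)
    simpa using this
  have hA0' : 0 ≤ A' := by
    have := (abs_nonneg _).trans (hA' 0)
    simpa using this
  calc |p x - q x| ≤ |p x| + |q x| := abs_sub _ _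
    _ ≤ A * (1 + ‖x‖) ^ N + A' * (1 + ‖x‖) ^ N' := add_le_add (hA x) (hA' x)
    _ ≤ A * (1 + ‖x‖) ^ max N N' + A' * (1 + ‖x‖) ^ max N N' := by
        have e1 := pow_le_pow_right₀ h1 (le_max_left N N')
        have e2 := pow_le_pow_right₀ h1 (le_max_right N N')
        have := mul_le_mul_of_nonneg_left e1 hA0
        have := mul_le_mul_of_nonneg_left e2 hA0'
        linarith
    _ = _ := by ring

/-- exponential bound on `C` -/
lemma expo_le (h : Adm C c α b) (a : Fin n) {s : ℝ} (hs : |s| ≤ α / 2) {x : Fin n → ℝ}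
    (hx : x ∈ C) : Real.exp (c ⬝ᵥ x + wt a s x) ≤ Real.exp b * Real.exp (-(α / 2 * ‖x‖)) := by
  rw [← Real.exp_add]
  apply Real.exp_le_exp.2
  have h1 := h.dec x hx
  have h2 := wt_le a s x
  have h3 : |s| * ‖x‖ ≤ α / 2 * ‖x‖ := mul_le_mul_of_nonneg_right hs (norm_nonneg x)
  linarith

lemma pg_int {β : ℝ} (hβ : 0 < β) {φ : (Fin n → ℝ) → ℝ} (hφ : PolyGrowth φ) :
    Integrable fun x : Fin n → ℝ => |φ x| * Real.exp (-(β * ‖x‖)) := by
  obtain ⟨hm, A, N, hA⟩ := hφ
  refine ((integrable_poly_exp n hβ N).const_mul A).mono' ?_ (Eventually.of_forall fun x => ?_)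
  · refine (by simpa only [Real.norm_eq_abs] using hm.norm :
      AEStronglyMeasurable (fun x => |φ x|) volume).mul ?_
    exact (by fun_prop :
      Continuous fun x : Fin n → ℝ => Real.exp (-(β * ‖x‖))).aestronglyMeasurable
  · rw [Real.norm_eq_abs, abs_of_nonneg (by positivity), ← mul_assoc]
    exact mul_le_mul_of_nonneg_right (hA x) (Real.exp_pos _).le

lemma intOn (h : Adm C c α b) (a : Fin n) {s : ℝ} (hs : |s| ≤ α / 2) {p : (Fin n → ℝ) → ℝ}
    (hp : PolyGrowth p) : IntegrableOn (fun x => p x * Real.exp (c ⬝ᵥ x + wt a s x)) C := by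
  have hβ : 0 < α / 2 := half_pos h.ha
  refine (((pg_int hβ hp).const_mul (Real.exp b)).integrableOn (s := C)).mono'
    ((hp.1.mul (continuous_expo a s).aestronglyMeasurable).restrict) ?_
  refine (ae_restrict_iff' h.closed.measurableSet).2 (Eventually.of_forall fun x hx => ?_)
  rw [norm_mul, Real.norm_eq_abs, Real.norm_eq_abs, Real.abs_exp]
  calc |p x| * Real.exp (c ⬝ᵥ x + wt a s x)
      ≤ |p x| * (Real.exp b * Real.exp (-(α / 2 * ‖x‖))) :=
        mul_le_mul_of_nonneg_left (expo_le h a hs hx) (abs_nonneg _)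
    _ = _ := by ring

/-- derivative of the moments -/
theorem Mo_der (h : Adm C c α b) (a : Fin n) {p : (Fin n → ℝ) → ℝ} (hp : PolyGrowth p) {s : ℝ}
    (hs : |s| < α / 2) :
    HasDerivAt (Mo C c a p)
      (Mo C c a (fun x => p x * x a) s - s / n * Mo C c a (fun x => p x * (x ⬝ᵥ x)) s) s := by
  have hC := h.closed.measurableSet
  have hβ : 0 < α / 2 := half_pos h.ha
  set ε : ℝ := α / 2 - |s| with hε
  have hε0 : 0 < ε := by rw [hε]; linarith
  have hball : ∀ r ∈ ball s ε, |r| ≤ α / 2 := by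
    intro r hr
    rw [mem_ball, Real.dist_eq] at hr
    have := abs_sub_abs_le_abs_sub r s
    linarith
  have hp1 : PolyGrowth (fun x => p x * x a) := hp.mul (pg_coord a)
  have hp2 : PolyGrowth (fun x => p x * (x ⬝ᵥ x)) := hp.mul pg_sq
  have hsum : ∀ x, ∀ r ∈ ball s ε, |p x * x a - r / n * (p x * (x ⬝ᵥ x))| ≤
      |p x * x a| + α / 2 / n * |p x * (x ⬝ᵥ x)| := by
    intro x r hr
    refine (abs_sub _ _).trans ?_
    rw [abs_mul (r / n)]
    have h1 : |r / n| ≤ α / 2 / n := by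
      rw [abs_div, abs_of_nonneg (Nat.cast_nonneg n : (0 : ℝ) ≤ n)]
      exact div_le_div_of_nonneg_right (hball r hr) (Nat.cast_nonneg n)
    have := mul_le_mul_of_nonneg_right h1 (abs_nonneg (p x * (x ⬝ᵥ x)))
    linarith
  have key := hasDerivAt_integral_of_dominated_loc_of_deriv_le (μ := volume.restrict C)
    (F := fun (r : ℝ) x => p x * Real.exp (c ⬝ᵥ x + wt a r x))
    (F' := fun (r : ℝ) x => (p x * x a - r / n * (p x * (x ⬝ᵥ x))) * Real.exp (c ⬝ᵥ x + wt a r x))
    (x₀ := s) (s := ball s ε)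
    (bound := fun x => Real.exp b * (|p x * x a| * Real.exp (-(α / 2 * ‖x‖)))
      + α / 2 / n * (Real.exp b * (|p x * (x ⬝ᵥ x)| * Real.exp (-(α / 2 * ‖x‖)))))
    (ball_mem_nhds s hε0)
    (Eventually.of_forall fun r => (hp.1.mul (continuous_expo a r).aestronglyMeasurable).restrict)
    (intOn h a hs.le hp)
    (((pg_sub hp1 (pg_cmul hp2 _)).1.mul (continuous_expo a s).aestronglyMeasurable).restrict)
    ((ae_restrict_iff' hC).2 (Eventually.of_forall fun x hx r hr => by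
      rw [norm_mul, Real.norm_eq_abs, Real.norm_eq_abs, Real.abs_exp]
      calc |p x * x a - r / n * (p x * (x ⬝ᵥ x))| * Real.exp (c ⬝ᵥ x + wt a r x)
          ≤ (|p x * x a| + α / 2 / n * |p x * (x ⬝ᵥ x)|)
            * (Real.exp b * Real.exp (-(α / 2 * ‖x‖))) := by
            refine mul_le_mul (hsum x r hr) (expo_le h a (hball r hr) hx) (Real.exp_pos _).le ?_
            positivity
        _ = _ := by ring))
    ((((pg_int hβ hp1).const_mul _).add (((pg_int hβ hp2).const_mul _).const_mul _)).restrict)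
    (Eventually.of_forall fun x r _ => by
      have h1 : HasDerivAt (fun r : ℝ => c ⬝ᵥ x + wt a r x) (x a - r / n * (x ⬝ᵥ x)) r := by
        unfold wt
        have h2 := (((hasDerivAt_id r).mul_const (x a)).sub
          ((((hasDerivAt_id r).pow 2).div_const (2 * (n : ℝ))).mul_const (x ⬝ᵥ x))).const_add
          (c ⬝ᵥ x)
        refine h2.congr_deriv ?_
        simp only [id_eq, one_mul, Nat.cast_ofNat, mul_one]
        have : (2 * r ^ (2 - 1)) / (2 * (n : ℝ)) = r / n := by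
          rw [show 2 - 1 = 1 from rfl, pow_one, mul_div_mul_left _ _ (two_ne_zero)]
        rw [this]
      have h2 := (h1.exp).const_mul (p x)
      refine h2.congr_deriv ?_
      ring)
  have hk := key.2
  have e1 : Mo C c a p = fun r => ∫ x in C, p x * Real.exp (c ⬝ᵥ x + wt a r x) := by
    ext r
    exact Mo_eq hC a p r
  rw [e1]
  refine hk.congr_deriv ?_
  rw [Mo_eq hC, Mo_eq hC, ← integral_const_mul, ← integral_sub (intOn h a hs.le hp1)
    ((intOn h a hs.le hp2).const_mul _)]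
  refine integral_congr_ae (Eventually.of_forall fun x => ?_)
  ring

/-- the 2-jet of the moments -/
theorem Mo_jet (h : Adm C c α b) (a : Fin n) {p : (Fin n → ℝ) → ℝ} (hp : PolyGrowth p) :
    J2 (𝓝 0) (Mo C c a p) (Mo C c a p 0) (Mo C c a (fun x => p x * x a) 0)
      (1 / 2 * Mo C c a (fun x => p x * x a * x a) 0
        - 1 / (2 * n) * Mo C c a (fun x => p x * (x ⬝ᵥ x)) 0) := by
  have hβ : 0 < α / 2 := half_pos h.ha
  have hp1 : PolyGrowth (fun x => p x * x a) := hp.mul (pg_coord a)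
  have hp2 : PolyGrowth (fun x => p x * (x ⬝ᵥ x)) := hp.mul pg_sq
  have h1 : ∀ᶠ t in 𝓝 (0 : ℝ), HasDerivAt (Mo C c a p)
      ((fun s => Mo C c a (fun x => p x * x a) s
        - s / n * Mo C c a (fun x => p x * (x ⬝ᵥ x)) s) t) t := by
    filter_upwards [ball_mem_nhds (0 : ℝ) hβ] with t ht
    refine Mo_der h a hp ?_
    rwa [mem_ball, dist_zero_right, Real.norm_eq_abs] at ht
  have hz : |(0 : ℝ)| < α / 2 := by rwa [abs_zero]
  have h2 : HasDerivAt (fun s => Mo C c a (fun x => p x * x a) s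
        - s / n * Mo C c a (fun x => p x * (x ⬝ᵥ x)) s)
      (Mo C c a (fun x => p x * x a * x a) 0 - 1 / n * Mo C c a (fun x => p x * (x ⬝ᵥ x)) 0) 0 := by
    have h3 := (Mo_der h a hp1 hz).sub
      (((hasDerivAt_id (0 : ℝ)).div_const (n : ℝ)).mul (Mo_der h a hp2 hz))
    refine h3.congr_deriv ?_
    simp
  have h3 := J2.of_hasDerivAt h1 h2
  refine h3.congr_coef rfl ?_ ?_
  · simp
  · field_simp

end Vale.Agent.P254.Eq657
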