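import Vale.Agent.P254.H657.Iface

/-! P254, equality case, block E2: the finite-dimensional algebra (sum of squares of commutators). -/

open Set Matrix

namespace Vale.Agent.P254.Eq657

open L (Mat Ten NN N3 frT Vec)

variable {n : ℕ}

section alg

variable (T : Ten n)

/-- `G a i j k = ∑_m T_aim T_mjk` -/
def GG (a i j k : Fin n) : ℝ := ∑ m, T a i m * T m j k

/-- sum over four indices -/
def S4 (f : Fin n → Fin n → Fin n → Fin n → ℝ) : ℝ := ∑ a, ∑ i, ∑ j, ∑ k, f a i j k

lemma S4_swap12 (f : Fin n → Fin n → Fin n → Fin n → ℝ) : S4 f = S4 fun a i j k => f i a j k := by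
  unfold S4
  rw [Finset.sum_comm]

lemma S4_swap23 (f : Fin n → Fin n → Fin n → Fin n → ℝ) : S4 f = S4 fun a i j k => f a j i k := by
  unfold S4
  exact Finset.sum_congr rfl fun a _ => by rw [Finset.sum_comm]

lemma S4_swap34 (f : Fin n → Fin n → Fin n → Fin n → ℝ) : S4 f = S4 fun a i j k => f a i k j := by
  unfold S4
  exact Finset.sum_congr rfl fun a _ => Finset.sum_congr rfl fun i _ => by rw [Finset.sum_comm]

lemma S4_congr {f g : Fin n → Fin n → Fin n → Fin n → ℝ} (h : ∀ a i j k, f a i j k = g a i j k) :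
    S4 f = S4 g := by
  unfold S4
  exact Finset.sum_congr rfl fun a _ => Finset.sum_congr rfl fun i _ =>
    Finset.sum_congr rfl fun j _ => Finset.sum_congr rfl fun k _ => h a i j k

lemma S4_add (f g : Fin n → Fin n → Fin n → Fin n → ℝ) :
    S4 (fun a i j k => f a i j k + g a i j k) = S4 f + S4 g := by
  unfold S4
  simp only [Finset.sum_add_distrib]

lemma S4_sub (f g : Fin n → Fin n → Fin n → Fin n → ℝ) :
    S4 (fun a i j k => f a i j k - g a i j k) = S4 f - S4 g := by
  unfold S4
  simp only [Finset.sum_sub_distrib]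

lemma S4_mul (r : ℝ) (f : Fin n → Fin n → Fin n → Fin n → ℝ) :
    S4 (fun a i j k => r * f a i j k) = r * S4 f := by
  unfold S4
  simp only [Finset.mul_sum]

lemma S4_nonneg {f : Fin n → Fin n → Fin n → Fin n → ℝ} (h : ∀ a i j k, 0 ≤ f a i j k) :
    0 ≤ S4 f := by
  unfold S4
  exact Finset.sum_nonneg fun a _ => Finset.sum_nonneg fun i _ => Finset.sum_nonneg fun j _ =>
    Finset.sum_nonneg fun k _ => h a i j k

lemma S4_zero_of {f : Fin n → Fin n → Fin n → Fin n → ℝ} (h : ∀ a i j k, 0 ≤ f a i j k)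
    (h0 : S4 f ≤ 0) (a i j k : Fin n) : f a i j k = 0 := by
  have e1 : S4 f = 0 := le_antisymm h0 (S4_nonneg h)
  unfold S4 at e1
  rw [Finset.sum_eq_zero_iff_of_nonneg fun a _ => Finset.sum_nonneg fun i _ =>
    Finset.sum_nonneg fun j _ => Finset.sum_nonneg fun k _ => h a i j k] at e1
  have e2 := e1 a (Finset.mem_univ a)
  rw [Finset.sum_eq_zero_iff_of_nonneg fun i _ =>
    Finset.sum_nonneg fun j _ => Finset.sum_nonneg fun k _ => h a i j k] at e2
  have e3 := e2 i (Finset.mem_univ i)
  rw [Finset.sum_eq_zero_iff_of_nonneg fun j _ => Finset.sum_nonneg fun k _ => h a i j k] at e3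
  have e4 := e3 j (Finset.mem_univ j)
  rw [Finset.sum_eq_zero_iff_of_nonneg fun k _ => h a i j k] at e4
  exact e4 k (Finset.mem_univ k)

variable {T} (hT : L.TSymm T)
include hT

lemma G12 (a i j k : Fin n) : GG T a i j k = GG T i a j k := by
  unfold GG
  exact Finset.sum_congr rfl fun m _ => by rw [hT.1 a i m]

lemma G34 (a i j k : Fin n) : GG T a i j k = GG T a i k j := by
  unfold GG
  exact Finset.sum_congr rfl fun m _ => by rw [hT.2 m j k]

lemma Gpair (a i j k : Fin n) : GG T a i j k = GG T j k a i := by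
  unfold GG
  refine Finset.sum_congr rfl fun m _ => ?_
  have e1 : T a i m = T m a i := by rw [hT.2 a i m, hT.1 a m i]
  have e2 : T m j k = T j k m := by rw [hT.1 m j k, hT.2 j m k]
  rw [e1, e2, mul_comm]

/-- the tetrahedron -/
lemma tau_eq : S4 (fun a i j k => GG T a i j k * GG T a k i j)
    = S4 fun a i j k => GG T a i j k * GG T a j i k := by
  rw [S4_swap34]
  refine S4_congr fun a i j k => ?_
  rw [G34 hT a i k j]

lemma tau_eq' : S4 (fun a i j k => GG T a j i k * GG T a k i j)
    = S4 fun a i j k => GG T a i j k * GG T a j i k := by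
  rw [S4_swap23]
  rw [S4_swap34]
  refine S4_congr fun a i j k => ?_
  show GG T a i k j * GG T a j k i = GG T a i j k * GG T a j i k
  rw [G34 hT a i k j, G34 hT a j k i]

omit hT in
lemma sqG2 : S4 (fun a i j k => GG T a j i k ^ 2) = S4 fun a i j k => GG T a i j k ^ 2 := by
  rw [S4_swap23]

omit hT in
lemma sqG3 : S4 (fun a i j k => GG T a k i j ^ 2) = S4 fun a i j k => GG T a i j k ^ 2 := by
  rw [S4_swap34, S4_swap23]

/-- `|G|² = 16 n` -/
lemma sqG (hM : ∀ m m', ∑ a, ∑ i, T a i m * T a i m' = if m = m' then 4 else 0) :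
    S4 (fun a i j k => GG T a i j k ^ 2) = 16 * n := by
  have e1 : S4 (fun a i j k => GG T a i j k ^ 2) =
      ∑ m, ∑ m', (∑ a, ∑ i, T a i m * T a i m') * ∑ j, ∑ k, T j k m * T j k m' := by
    unfold S4 GG
    have h1 : ∀ a i j k, (∑ m, T a i m * T m j k) ^ 2 =
        ∑ m, ∑ m', (T a i m * T a i m') * (T j k m * T j k m') := by
      intro a i j k
      rw [sq, Finset.sum_mul_sum]
      refine Finset.sum_congr rfl fun m _ => Finset.sum_congr rfl fun m' _ => ?_
      have e1 : ∀ m, T m j k = T j k m := fun m => by rw [hT.1 m j k, hT.2 j m k]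
      rw [e1 m, e1 m']
      ring
    simp only [h1]
    have h2 : ∀ a i, ∑ j, ∑ k, ∑ m, ∑ m', (T a i m * T a i m') * (T j k m * T j k m') =
        ∑ m, ∑ m', (T a i m * T a i m') * ∑ j, ∑ k, T j k m * T j k m' := by
      intro a i
      simp only [Finset.mul_sum]
      calc ∑ j, ∑ k, ∑ m, ∑ m', (T a i m * T a i m') * (T j k m * T j k m')
          = ∑ j, ∑ m, ∑ k, ∑ m', (T a i m * T a i m') * (T j k m * T j k m') :=
            Finset.sum_congr rfl fun j _ => Finset.sum_comm
        _ = ∑ m, ∑ j, ∑ k, ∑ m', (T a i m * T a i m') * (T j k m * T j k m') := Finset.sum_comm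
        _ = ∑ m, ∑ j, ∑ m', ∑ k, (T a i m * T a i m') * (T j k m * T j k m') :=
            Finset.sum_congr rfl fun m _ => Finset.sum_congr rfl fun j _ => Finset.sum_comm
        _ = ∑ m, ∑ m', ∑ j, ∑ k, (T a i m * T a i m') * (T j k m * T j k m') :=
            Finset.sum_congr rfl fun m _ => Finset.sum_comm
    simp only [h2]
    have h3 : ∀ (F : Fin n → Fin n → ℝ), ∑ a, ∑ i, ∑ m, ∑ m', (T a i m * T a i m') * F m m' =
        ∑ m, ∑ m', (∑ a, ∑ i, T a i m * T a i m') * F m m' := by
      intro F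
      simp only [Finset.sum_mul]
      calc ∑ a, ∑ i, ∑ m, ∑ m', (T a i m * T a i m') * F m m'
          = ∑ a, ∑ m, ∑ i, ∑ m', (T a i m * T a i m') * F m m' :=
            Finset.sum_congr rfl fun j _ => Finset.sum_comm
        _ = ∑ m, ∑ a, ∑ i, ∑ m', (T a i m * T a i m') * F m m' := Finset.sum_comm
        _ = ∑ m, ∑ a, ∑ m', ∑ i, (T a i m * T a i m') * F m m' :=
            Finset.sum_congr rfl fun m _ => Finset.sum_congr rfl fun j _ => Finset.sum_comm
        _ = ∑ m, ∑ m', ∑ a, ∑ i, (T a i m * T a i m') * F m m' :=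
            Finset.sum_congr rfl fun m _ => Finset.sum_comm
    exact h3 _
  rw [e1]
  simp only [hM]
  simp
  ring

/-- The conclusion: the slices commute. -/
theorem commute_of_key (hM : ∀ m m', ∑ a, ∑ i, T a i m * T a i m' = if m = m' then 4 else 0)
    (K : Fin n → Ten n) (hK1 : ∀ a i j k, K a i j k = K a j i k)
    (hK2 : ∀ a i j k, K a i j k = K a i k j)
    (key : ∀ δ : ℝ, 0 < δ → 24 * n - 12 * δ * n + S4 (fun a i j k => K a i j k ^ 2)
      - 3 * S4 (fun a i j k => K a i j k * GG T a i j k)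
      + 3 / 4 * S4 (fun a i j k => GG T a i j k * GG T a j i k) ≤ 0) (a b : Fin n) :
    slice T a * slice T b = slice T b * slice T a := by
  set τ := S4 (fun a i j k => GG T a i j k * GG T a j i k) with hτ
  -- completing the square in `K`
  have h1 : 0 ≤ S4 (fun a i j k => K a i j k ^ 2) - 3 * S4 (fun a i j k => K a i j k * GG T a i j k)
      + (12 * n + 3 / 2 * τ) := by
    have h2 : 0 ≤ S4 fun a i j k =>
        (K a i j k - 1 / 2 * (GG T a i j k + GG T a j i k + GG T a k i j)) ^ 2 :=
      S4_nonneg fun a i j k => sq_nonneg _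
    have e1 : (fun a i j k =>
        (K a i j k - 1 / 2 * (GG T a i j k + GG T a j i k + GG T a k i j)) ^ 2) =
        fun a i j k => (K a i j k ^ 2 - (K a i j k * GG T a i j k + (K a i j k * GG T a j i k
          + K a i j k * GG T a k i j))) + 1 / 4 * ((GG T a i j k ^ 2 + (GG T a j i k ^ 2
          + GG T a k i j ^ 2)) + 2 * (GG T a i j k * GG T a j i k + (GG T a i j k * GG T a k i j
          + GG T a j i k * GG T a k i j))) := by
      ext a i j k
      ring
    rw [e1, S4_add, S4_sub, S4_add, S4_add, S4_mul, S4_add, S4_add, S4_add, S4_mul, S4_add, S4_add,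
      tau_eq hT, tau_eq' hT, sqG2, sqG3, sqG hT hM, ← hτ] at h2
    have e2 : S4 (fun a i j k => K a i j k * GG T a j i k) =
        S4 fun a i j k => K a i j k * GG T a i j k := by
      rw [S4_swap23]
      exact S4_congr fun a i j k => by rw [hK1 a j i k]
    have e3 : S4 (fun a i j k => K a i j k * GG T a k i j) =
        S4 fun a i j k => K a i j k * GG T a i j k := by
      rw [S4_swap34, S4_swap23]
      exact S4_congr fun a i j k => by rw [hK2 a j k i, hK1 a j i k]
    rw [e2, e3] at h2
    linarith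
  -- the commutators
  have h3 : S4 (fun a b i j => (GG T a i b j - GG T b i a j) ^ 2) = 32 * n - 2 * τ := by
    have e1 : (fun a b i j => (GG T a i b j - GG T b i a j) ^ 2) = fun a b i j : Fin n =>
        (GG T a i b j ^ 2 + GG T b i a j ^ 2) - 2 * (GG T a i b j * GG T b i a j) := by
      ext a b i j
      ring
    rw [e1, S4_sub, S4_add, S4_mul]
    have e2 : S4 (fun a b i j => GG T a i b j ^ 2) = 16 * n := by
      rw [S4_swap23, ← sqG hT hM]
    have e3 : S4 (fun a b i j => GG T b i a j ^ 2) = 16 * n := by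
      rw [S4_swap12, S4_swap23, ← sqG hT hM]
    have e4 : S4 (fun a b i j => GG T a i b j * GG T b i a j) = τ := by
      have e5 : S4 (fun a b i j => GG T a i b j * GG T b i a j) =
          S4 fun a b i j => GG T a i j b * GG T a j i b :=
        S4_congr fun a b i j => by rw [G34 hT a i b j, Gpair hT b i a j, G34 hT a j b i]
      rw [e5, S4_swap23, S4_swap34]
    rw [e2, e3, e4]
    ring
  have h4 : ∀ δ : ℝ, 0 < δ → 32 * n - 2 * τ ≤ 32 * δ * n := by
    intro δ hδ
    have := key δ hδ
    nlinarith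
  have h5 : 32 * n - 2 * τ ≤ 0 := by
    refine le_of_forall_pos_lt_add fun ε hε => ?_
    have h6 := h4 (ε / (32 * (n + 1))) (by positivity)
    have h7 : 32 * (ε / (32 * ((n : ℝ) + 1))) * n < ε := by
      rw [show 32 * (ε / (32 * ((n : ℝ) + 1))) * n = ε * (n / (n + 1)) by field_simp]
      have : (n : ℝ) / (n + 1) < 1 := by
        rw [div_lt_one (by positivity)]
        linarith
      nlinarith
    linarith
  have h6 := S4_zero_of (f := fun a b i j => (GG T a i b j - GG T b i a j) ^ 2)
    (fun a b i j => sq_nonneg _) (by rw [h3]; exact h5)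
  ext i j
  have h7 : GG T a i b j = GG T b i a j := by
    have := h6 a b i j
    have := pow_eq_zero_iff (two_ne_zero) |>.1 this
    linarith
  have e1 : ∀ a b, (slice T a * slice T b) i j = GG T a i b j := by
    intro a b
    unfold GG slice
    rw [Matrix.mul_apply]
    exact Finset.sum_congr rfl fun m _ => by rw [of_apply, of_apply, hT.1 b m j]
  rw [e1, e1, h7]

end alg

end Vale.Agent.P254.Eq657
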