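import Vale.Agent.P254.H657.E2a

/-! P254, equality case, block E2, part b: 2-jets of expectations, covariance and third cumulant along
`s ↦ (s²/n · 1, c + s e_a)`, for a density with mean `0` and covariance `1`. -/

open MeasureTheory Set Matrix Filter Topology Metric

namespace Vale.Agent.P254.Eq657

open R304
open L (Mat Ten NN frT Vec J1 J2)

variable {n : ℕ} {C : Set (Fin n → ℝ)} {c : Fin n → ℝ} {α b : ℝ}

/-- expectations along the path -/
noncomputable def Es (C : Set (Fin n → ℝ)) (c : Fin n → ℝ) (a : Fin n) (p : (Fin n → ℝ) → ℝ)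
    (s : ℝ) : ℝ := Ef (fs C c a s) p

lemma Es_eq (a : Fin n) (p : (Fin n → ℝ) → ℝ) (s : ℝ) :
    Es C c a p s = Mo C c a p s * (Mo C c a (fun _ => 1) s)⁻¹ := by
  unfold Es Ef Mo
  simp only [one_mul]
  rw [div_eq_mul_inv]

/-- expectation at `s = 0` -/
noncomputable def E0 (C : Set (Fin n → ℝ)) (c : Fin n → ℝ) (p : (Fin n → ℝ) → ℝ) : ℝ :=
  Ef (limDens 0 c C) p

lemma Es_zero (a : Fin n) (p : (Fin n → ℝ) → ℝ) : Es C c a p 0 = E0 C c p := by
  unfold Es E0
  rw [fs_zero]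

/-- the normalisation of the base density used here -/
structure Iso (C : Set (Fin n → ℝ)) (c : Fin n → ℝ) : Prop where
  m1 : ∀ i, E0 C c (fun x => x i) = 0
  m2 : ∀ i j, E0 C c (fun x => x i * x j) = if i = j then 1 else 0

lemma good0 (h : Adm C c α b) : Good (limDens 0 c C) (Real.exp b) α :=
  good_limDens Matrix.PosSemidef.zero h.closed h.int h.ha h.dec

lemma Mo_zero (a : Fin n) (p : (Fin n → ℝ) → ℝ) :
    Mo C c a p 0 = ∫ x, p x * limDens 0 c C x := by
  unfold Mo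
  rw [fs_zero]

lemma mass_pos (h : Adm C c α b) : 0 < ∫ x, limDens 0 c C x := (good0 h).mass_pos

lemma Mo_zero' (h : Adm C c α b) (a : Fin n) (p : (Fin n → ℝ) → ℝ) :
    Mo C c a p 0 = (∫ x, limDens 0 c C x) * E0 C c p := by
  have := (mass_pos h).ne'
  rw [Mo_zero]
  unfold E0 Ef
  field_simp

lemma E0_sum (h : Adm C c α b) {ι : Type*} (S : Finset ι) (g : ι → (Fin n → ℝ) → ℝ)
    (hg : ∀ i ∈ S, PolyGrowth (g i)) :
    E0 C c (fun x => ∑ i ∈ S, g i x) = ∑ i ∈ S, E0 C c (g i) := by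
  unfold E0 Ef
  rw [← Finset.sum_div]
  congr 1
  have e : (fun x => (∑ i ∈ S, g i x) * limDens 0 c C x) =
      fun x => ∑ i ∈ S, g i x * limDens 0 c C x := by
    ext x
    rw [Finset.sum_mul]
  rw [e, integral_finsetSum _ fun i hi => (good0 h).int (hg i hi)]

lemma E0_one (h : Adm C c α b) : E0 C c (fun _ => 1) = 1 := by
  unfold E0 Ef
  simp only [one_mul]
  exact div_self (mass_pos h).ne'

lemma E0_sq (h : Adm C c α b) (hI : Iso C c) : E0 C c (fun x => x ⬝ᵥ x) = n := by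
  have e : (fun x : Fin n → ℝ => x ⬝ᵥ x) = fun x => ∑ i, x i * x i := by
    ext x; rfl
  rw [e, E0_sum h Finset.univ (fun i x => x i * x i) fun i _ => pg_coord2 i i]
  simp [hI.m2]

/-- second order coefficient of the jets of expectations -/
noncomputable def qc (C : Set (Fin n → ℝ)) (c : Fin n → ℝ) (a : Fin n)
    (p : (Fin n → ℝ) → ℝ) : ℝ :=
  1 / 2 * E0 C c (fun x => p x * x a * x a) - 1 / (2 * n) * E0 C c (fun x => p x * (x ⬝ᵥ x))

/-- the martingale property: the coefficients add up to zero -/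
lemma sum_qc (hn : 0 < n) (h : Adm C c α b) {p : (Fin n → ℝ) → ℝ} (hp : PolyGrowth p) :
    ∑ a, qc C c a p = 0 := by
  unfold qc
  have hn' : (n : ℝ) ≠ 0 := by exact_mod_cast hn.ne'
  rw [Finset.sum_sub_distrib, ← Finset.mul_sum, ← E0_sum h Finset.univ
    (fun a x => p x * x a * x a) fun a _ => (hp.mul (pg_coord a)).mul (pg_coord a)]
  have e : (fun x : Fin n → ℝ => ∑ a, p x * x a * x a) = fun x => p x * (x ⬝ᵥ x) := by
    ext x
    unfold dotProduct
    rw [Finset.mul_sum]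
    exact Finset.sum_congr rfl fun i _ => by ring
  rw [e]
  simp only [Finset.sum_const, Finset.card_univ, Fintype.card_fin, nsmul_eq_mul]
  field_simp
  ring

/-- jet of the mass -/
lemma mass_jet (hn : 0 < n) (h : Adm C c α b) (hI : Iso C c) (a : Fin n) :
    J2 (𝓝 0) (Mo C c a fun _ => 1) (∫ x, limDens 0 c C x) 0 0 := by
  have hn' : (n : ℝ) ≠ 0 := by exact_mod_cast hn.ne'
  refine (Mo_jet h a pg_one).congr_coef ?_ ?_ ?_
  · rw [Mo_zero' h, E0_one h, mul_one]
  · rw [Mo_zero' h]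
    simp only [one_mul]
    rw [hI.m1, mul_zero]
  · rw [Mo_zero' h, Mo_zero' h]
    simp only [one_mul]
    rw [hI.m2, if_pos rfl, E0_sq h hI]
    field_simp
    ring

/-- jet of the expectations -/
lemma Es_jet (hn : 0 < n) (h : Adm C c α b) (hI : Iso C c) (a : Fin n) {p : (Fin n → ℝ) → ℝ}
    (hp : PolyGrowth p) :
    J2 (𝓝 0) (Es C c a p) (E0 C c p) (E0 C c fun x => p x * x a) (qc C c a p) := by
  have hZ := (mass_pos h).ne'
  set Z := ∫ x, limDens 0 c C x with hZd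
  have h1 := mass_jet hn h hI a
  rw [← hZd] at h1
  have h2 : J2 (𝓝 0) (fun s => (Mo C c a (fun _ => 1) s)⁻¹) Z⁻¹ (-(Z ^ 2)⁻¹ * 0)
      (-(Z ^ 2)⁻¹ * 0 + (2 * (Z ^ 3)⁻¹) / 2 * 0 ^ 2) := by
    refine h1.comp le_rfl (φ := fun x => x⁻¹) (φ1 := fun x => -(x ^ 2)⁻¹)
      (φ2 := 2 * (Z ^ 3)⁻¹) ?_ ?_
    · filter_upwards [isOpen_ne.mem_nhds hZ] with x hx
      exact hasDerivAt_inv hx
    · have h3 := ((hasDerivAt_pow 2 Z).inv (pow_ne_zero 2 hZ)).neg
      refine h3.congr_deriv ?_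
      simp only [Nat.cast_ofNat, Nat.add_one_sub_one, pow_one]
      field_simp
  have h3 := (Mo_jet h a hp).mul le_rfl h2
  refine h3.congr (Eventually.of_forall fun s => (Es_eq a p s).symm) ?_ ?_ ?_
  · rw [Mo_zero' h, ← hZd]
    field_simp
  · rw [Mo_zero' h, Mo_zero' h, ← hZd]
    field_simp
    ring
  · unfold qc
    rw [Mo_zero' h, Mo_zero' h, Mo_zero' h, Mo_zero' h, ← hZd]
    field_simp
    ring

end Vale.Agent.P254.Eq657
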