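import Vale.Agent.P254.H657.E2b

/-! P254, equality case, block E2, part c: 2-jets of the covariance and of the third cumulant. -/

open MeasureTheory Set Matrix Filter Topology Metric

namespace Vale.Agent.P254.Eq657

open R304
open L (Mat Ten NN frT Vec J1 J2)

variable {n : ℕ} {C : Set (Fin n → ℝ)} {c : Fin n → ℝ} {α b : ℝ}

lemma pg3 (i j k : Fin n) : PolyGrowth (fun x : Fin n → ℝ => x i * x j * x k) :=
  (pg_coord2 i j).mul (pg_coord k)

/-- third moments at `s = 0` -/
noncomputable def tt (C : Set (Fin n → ℝ)) (c : Fin n → ℝ) : Ten n := fun i j k =>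
  E0 C c (fun x => x i * x j * x k)

/-- Kronecker symbol -/
def kd (i j : Fin n) : ℝ := if i = j then 1 else 0

/-- fourth cumulants at `s = 0` -/
noncomputable def kk (C : Set (Fin n → ℝ)) (c : Fin n → ℝ) (a : Fin n) : Ten n := fun i j k =>
  E0 C c (fun x => x i * x j * x k * x a) - kd i j * kd k a - kd i k * kd j a - kd j k * kd i a

lemma tt_comm12 (i j k : Fin n) : tt C c i j k = tt C c j i k := by
  unfold tt
  congr 1
  ext x
  ring

lemma tt_comm23 (i j k : Fin n) : tt C c i j k = tt C c i k j := by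
  unfold tt
  congr 1
  ext x
  ring

lemma T3_zero (hI : Iso C c) : T3 (limDens 0 c C) = tt C c := by
  ext i j k
  unfold T3 tt
  have h1 : ∀ i, Ef (limDens 0 c C) (fun x => x i) = 0 := hI.m1
  simp only [h1]
  unfold E0
  ring

/-- coefficient of `s²` in the covariance -/
noncomputable def A2 (C : Set (Fin n → ℝ)) (c : Fin n → ℝ) (a : Fin n) : Mat n :=
  Matrix.of fun i j => qc C c a (fun x => x i * x j) - kd i a * kd j a

/-- coefficient of `s²` in the third cumulant -/
noncomputable def T2 (C : Set (Fin n → ℝ)) (c : Fin n → ℝ) (a : Fin n) : Ten n := fun i j k =>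
  qc C c a (fun x => x i * x j * x k)
    - (kd i j * qc C c a (fun x => x k) + tt C c i j a * kd k a)
    - (kd i k * qc C c a (fun x => x j) + tt C c i k a * kd j a)
    - (kd j k * qc C c a (fun x => x i) + tt C c j k a * kd i a)

lemma kd_comm (i j : Fin n) : kd i j = kd j i := by
  unfold kd
  simp only [eq_comm]

lemma m1_jet (hn : 0 < n) (h : Adm C c α b) (hI : Iso C c) (a i : Fin n) :
    J2 (𝓝 0) (Es C c a fun x => x i) 0 (kd i a) (qc C c a fun x => x i) :=
  (Es_jet hn h hI a (pg_coord i)).congr_coef (hI.m1 i) (hI.m2 i a) rfl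

lemma m2_jet (hn : 0 < n) (h : Adm C c α b) (hI : Iso C c) (a i j : Fin n) :
    J2 (𝓝 0) (Es C c a fun x => x i * x j) (kd i j) (tt C c i j a)
      (qc C c a fun x => x i * x j) :=
  (Es_jet hn h hI a (pg_coord2 i j)).congr_coef (hI.m2 i j) rfl rfl

lemma cov_jet (hn : 0 < n) (h : Adm C c α b) (hI : Iso C c) (a i j : Fin n) :
    J2 (𝓝 0) (fun s => covF (fs C c a s) i j) ((1 : Mat n) i j) (slice (tt C c) a i j)
      (A2 C c a i j) := by
  have h1 := (m2_jet hn h hI a i j).sub ((m1_jet hn h hI a i).mul le_rfl (m1_jet hn h hI a j))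
  refine h1.congr (Eventually.of_forall fun s => ?_) ?_ ?_ ?_
  · unfold covF Es
    rfl
  · rw [Matrix.one_apply, mul_zero, sub_zero]
    rfl
  · unfold slice
    rw [Matrix.of_apply, zero_mul, mul_zero, add_zero, sub_zero, tt_comm23, tt_comm12]
  · unfold A2
    rw [Matrix.of_apply]
    ring

lemma T3_jet (hn : 0 < n) (h : Adm C c α b) (hI : Iso C c) (a i j k : Fin n) :
    J2 (𝓝 0) (fun s => T3 (fs C c a s) i j k) (tt C c i j k) (kk C c a i j k)
      (T2 C c a i j k) := by
  have h3 := Es_jet hn h hI a (pg3 i j k)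
  have e1 := (m2_jet hn h hI a i j).mul le_rfl (m1_jet hn h hI a k)
  have e2 := (m2_jet hn h hI a i k).mul le_rfl (m1_jet hn h hI a j)
  have e3 := (m2_jet hn h hI a j k).mul le_rfl (m1_jet hn h hI a i)
  have e4 := (((m1_jet hn h hI a i).mul le_rfl (m1_jet hn h hI a j)).mul le_rfl
    (m1_jet hn h hI a k)).const_mul 2
  refine ((((h3.sub e1).sub e2).sub e3).add e4).congr (Eventually.of_forall fun s => ?_) ?_ ?_ ?_
  · unfold T3 Es
    ring
  · unfold tt
    ring
  · unfold kk
    ring
  · unfold T2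
    ring

lemma sum_kd (f : Fin n → ℝ) (i : Fin n) : ∑ a, f a * kd i a = f i := by
  unfold kd
  simp

lemma sum_kd' (f : Fin n → ℝ) (i : Fin n) : ∑ a, f a * kd a i = f i := by
  unfold kd
  simp

/-- `∑_a A2_a = -1` -/
lemma sum_A2 (hn : 0 < n) (h : Adm C c α b) (i j : Fin n) : ∑ a, A2 C c a i j = - kd i j := by
  unfold A2
  simp only [Matrix.of_apply]
  rw [Finset.sum_sub_distrib, sum_qc hn h (pg_coord2 i j), sum_kd]
  ring

/-- `∑_a T2_a = -3 T` -/
lemma sum_T2 (hn : 0 < n) (h : Adm C c α b) (i j k : Fin n) :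
    ∑ a, T2 C c a i j k = -3 * tt C c i j k := by
  unfold T2
  rw [Finset.sum_sub_distrib, Finset.sum_sub_distrib, Finset.sum_sub_distrib,
    sum_qc hn h (pg3 i j k), Finset.sum_add_distrib, Finset.sum_add_distrib,
    Finset.sum_add_distrib, ← Finset.mul_sum, ← Finset.mul_sum, ← Finset.mul_sum,
    sum_qc hn h (pg_coord i), sum_qc hn h (pg_coord j), sum_qc hn h (pg_coord k),
    sum_kd (fun a => tt C c i j a), sum_kd (fun a => tt C c i k a), sum_kd (fun a => tt C c j k a)]
  have e1 : tt C c i k j = tt C c i j k := tt_comm23 i k j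
  have e2 : tt C c j k i = tt C c i j k := by rw [tt_comm23, tt_comm12]
  rw [e1, e2]
  ring

end Vale.Agent.P254.Eq657
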