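import Vale.Agent.P254.H657.E2c

/-! P254, equality case, block E2, part d: the functional `D` along the path, `4 n ≤ ‖T‖²`. -/

open MeasureTheory Set Matrix Filter Topology Metric

namespace Vale.Agent.P254.Eq657

open R304
open L (Mat Ten NN frT Vec J1 J2 Fr Phi Phi_eq exists_Fr dd1)
open Z546 (phi_jet2)

variable {n : ℕ} {C : Set (Fin n → ℝ)} {c : Fin n → ℝ} {α b : ℝ}

lemma psd_small {A : Mat n} (hA : ∀ i j, A i j = A j i) (hb : ∀ i j, |A i j| ≤ 2) {t x0 : ℝ}
    (ht : 0 ≤ t) (h : 2 * n * t ≤ x0) : (x0 • (1 : Mat n) - t • A).PosSemidef := by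
  rw [Matrix.posSemidef_iff_dotProduct_mulVec]
  constructor
  · ext i j
    simp only [conjTranspose_apply, star_trivial, Matrix.sub_apply, Matrix.smul_apply,
      Matrix.one_apply, smul_eq_mul]
    rw [hA j i]
    simp only [eq_comm]
  · intro v
    rw [star_trivial, sub_mulVec, smul_mulVec, one_mulVec, smul_mulVec, dotProduct_sub,
      dotProduct_smul, dotProduct_smul, smul_eq_mul, smul_eq_mul]
    have h1 : v ⬝ᵥ A *ᵥ v ≤ 2 * n * (v ⬝ᵥ v) := by
      have e1 : v ⬝ᵥ A *ᵥ v = ∑ i, ∑ j, v i * (A i j * v j) := by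
        unfold dotProduct mulVec dotProduct
        exact Finset.sum_congr rfl fun i _ => by rw [Finset.mul_sum]
      rw [e1]
      have e2 : ∀ i j, v i * (A i j * v j) ≤ v i * v i + v j * v j := by
        intro i j
        have h3 := hb i j
        have h4 : |v i * (A i j * v j)| ≤ 2 * (|v i| * |v j|) := by
          rw [abs_mul, abs_mul]
          nlinarith [abs_nonneg (v i), abs_nonneg (v j), mul_nonneg (abs_nonneg (v i))
            (abs_nonneg (v j))]
        have h5 := le_abs_self (v i * (A i j * v j))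
        have h6 : 2 * (|v i| * |v j|) ≤ v i * v i + v j * v j := by
          nlinarith [sq_nonneg (|v i| - |v j|), abs_mul_abs_self (v i), abs_mul_abs_self (v j)]
        linarith
      calc ∑ i, ∑ j, v i * (A i j * v j) ≤ ∑ i, ∑ j, (v i * v i + v j * v j) :=
            Finset.sum_le_sum fun i _ => Finset.sum_le_sum fun j _ => e2 i j
        _ = 2 * n * (v ⬝ᵥ v) := by
            simp only [Finset.sum_add_distrib, Finset.sum_const, Finset.card_univ,
              Fintype.card_fin, nsmul_eq_mul]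
            rw [← Finset.mul_sum]
            unfold dotProduct
            ring
    have h2 : 0 ≤ v ⬝ᵥ v := dot_nonneg v
    nlinarith [mul_le_mul_of_nonneg_left h1 ht, mul_le_mul_of_nonneg_right h h2]

lemma cov_symm (f : (Fin n → ℝ) → ℝ) (i j : Fin n) : covF f i j = covF f j i := by
  unfold covF
  simp only [of_apply]
  have : (fun x : Fin n → ℝ => x j * x i) = fun x => x i * x j := by
    ext x; ring
  rw [this]
  ring

/-- along the path the smallness hypothesis holds -/
lemma ev_small (hn : 0 < n) (h : Adm C c α b) (hI : Iso C c) (a : Fin n) {x0 : ℝ} (hx0 : 0 < x0) :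
    ∀ᶠ s : ℝ in 𝓝 (0 : ℝ), (x0 • (1 : Mat n) - (s ^ 2 / n) • covF (fs C c a s)).PosSemidef := by
  have hn' : (0 : ℝ) < n := by exact_mod_cast hn
  have h1 : ∀ᶠ s : ℝ in 𝓝 (0 : ℝ), ∀ i j, |covF (fs C c a s) i j| ≤ 2 := by
    rw [eventually_all]
    intro i
    rw [eventually_all]
    intro j
    have h2 := ((cov_jet hn h hI a i j).tendsto le_rfl).abs
    have h3 : |(1 : Mat n) i j| < 2 := by
      rw [Matrix.one_apply]
      split_ifs <;> simp
    exact (h2.eventually (gt_mem_nhds h3)).mono fun s hs => hs.le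
  have h4 : ∀ᶠ s : ℝ in 𝓝 (0 : ℝ), 2 * n * (s ^ 2 / n) ≤ x0 := by
    have h5 : Tendsto (fun s : ℝ => 2 * n * (s ^ 2 / n)) (𝓝 0) (𝓝 (2 * (n : ℝ) * ((0 : ℝ) ^ 2 / n))) := by
      apply Continuous.tendsto
      fun_prop
    have h6 : 2 * (n : ℝ) * (0 ^ 2 / n) < x0 := by simpa using hx0
    exact (h5.eventually (gt_mem_nhds h6)).mono fun s hs => hs.le
  filter_upwards [h1, h4] with s hs1 hs4
  exact psd_small (cov_symm _) hs1 (by positivity) hs4

/-- `Adm` along the path -/
lemma adm_path (h : Adm C c α b) (a : Fin n) {s : ℝ} (hs : |s| ≤ α / 2) :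
    Adm C (c + s • (Pi.single a 1 : Fin n → ℝ)) (α / 2) b where
  closed := h.closed
  convex := h.convex
  int := h.int
  ha := half_pos h.ha
  dec := by
    intro y hy
    rw [add_dotProduct, smul_dotProduct, smul_eq_mul, single_one_dotProduct]
    have h1 := h.dec y hy
    have h2 : s * y a ≤ α / 2 * ‖y‖ := by
      refine (le_abs_self _).trans ?_
      rw [abs_mul]
      exact mul_le_mul hs (abs_co_le a y) (abs_nonneg _) (by linarith [h.ha])
    linarith

lemma good_path (h : Adm C c α b) (a : Fin n) {s : ℝ} (hs : |s| ≤ α / 2) :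
    Good (fs C c a s) (Real.exp b) (α / 2) := by
  have h1 := adm_path h a hs
  refine good_limDens ?_ h1.closed h1.int h1.ha h1.dec
  exact Matrix.PosSemidef.one.smul (by positivity)

/-! ### entropy along the path -/

lemma fs_log (a : Fin n) (s : ℝ) (x : Fin n → ℝ) :
    fs C c a s x * Real.log (fs C c a s x) = (c ⬝ᵥ x + wt a s x) * fs C c a s x := by
  rw [fs_eq]
  by_cases hx : x ∈ C
  · rw [indicator_of_mem hx, Real.log_exp]
    ring
  · rw [indicator_of_notMem hx]
    simp

lemma pg_dot (b : Fin n → ℝ) : PolyGrowth (fun x : Fin n → ℝ => b ⬝ᵥ x) := by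
  refine ⟨?_, n * ‖b‖, 1, fun x => ?_⟩
  · refine Continuous.aestronglyMeasurable ?_
    simp only [dotProduct]
    fun_prop
  · refine (abs_dot_le' b x).trans ?_
    rw [pow_one]
    have : 0 ≤ (n : ℝ) * ‖b‖ := by positivity
    nlinarith [norm_nonneg x]

lemma ent_path (h : Adm C c α b) (a : Fin n) {s : ℝ} (hs : |s| ≤ α / 2) :
    entF (fs C c a s) = Real.log (Mo C c a (fun _ => 1) s) - (Es C c a (fun x => c ⬝ᵥ x) s
      + s * Es C c a (fun x => x a) s - s ^ 2 * (1 / (2 * n) * Es C c a (fun x => x ⬝ᵥ x) s)) := by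
  have hg := good_path h a hs
  have e0 : ∫ x, fs C c a s x = Mo C c a (fun _ => 1) s := by
    unfold Mo
    simp
  have e1 : ∫ x, fs C c a s x * Real.log (fs C c a s x) =
      (∫ x, (c ⬝ᵥ x) * fs C c a s x) + s * (∫ x, x a * fs C c a s x)
        - s ^ 2 / (2 * n) * ∫ x, (x ⬝ᵥ x) * fs C c a s x := by
    simp only [fs_log]
    have i1 : Integrable fun x => (c ⬝ᵥ x) * fs C c a s x := hg.int (pg_dot c)
    have i2 : Integrable fun x : Fin n → ℝ => s * (x a * fs C c a s x) :=
      (hg.int (pg_coord a)).const_mul s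
    have i3 : Integrable fun x => s ^ 2 / (2 * n) * ((x ⬝ᵥ x) * fs C c a s x) :=
      (hg.int pg_sq).const_mul _
    have i12 : Integrable fun x : Fin n → ℝ =>
        (c ⬝ᵥ x) * fs C c a s x + s * (x a * fs C c a s x) := i1.add i2
    rw [← integral_const_mul, ← integral_const_mul, ← integral_add i1 i2,
      ← integral_sub i12 i3]
    refine integral_congr_ae (Eventually.of_forall fun x => ?_)
    simp only [wt]
    ring
  unfold entF
  rw [e0, e1]
  unfold Es Ef
  rw [e0]
  ring

lemma ent_jet (hn : 0 < n) (h : Adm C c α b) (hI : Iso C c) (a : Fin n) :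
    ∃ b' : ℝ, J2 (𝓝 0) (fun s => entF (fs C c a s)) (entF (limDens 0 c C)) b'
      (-(qc C c a fun x => c ⬝ᵥ x) - 1 / 2) := by
  have hn' : (n : ℝ) ≠ 0 := by exact_mod_cast hn.ne'
  have hZ := mass_pos h
  set Z := ∫ x, limDens 0 c C x with hZd
  have h1 := mass_jet hn h hI a
  rw [← hZd] at h1
  have h2 : J2 (𝓝 0) (fun s => Real.log (Mo C c a (fun _ => 1) s)) (Real.log Z) (Z⁻¹ * 0)
      (Z⁻¹ * 0 + (-(Z ^ 2)⁻¹) / 2 * 0 ^ 2) := by
    refine h1.comp le_rfl (φ := Real.log) (φ1 := fun x => x⁻¹) (φ2 := -(Z ^ 2)⁻¹) ?_ ?_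
    · filter_upwards [isOpen_ne.mem_nhds hZ.ne'] with x hx
      exact Real.hasDerivAt_log hx
    · exact hasDerivAt_inv hZ.ne'
  have h3 := Es_jet hn h hI a (pg_dot c)
  have h4 : J2 (𝓝 0) (fun s => s * Es C c a (fun x => x a) s) _ _ _ :=
    J2.id.mul le_rfl (m1_jet hn h hI a a)
  have h5 : J2 (𝓝 0) (fun s : ℝ => s ^ 2) 0 0 1 := by
    refine (J2.id.mul le_rfl J2.id).congr (Eventually.of_forall fun s => ?_) ?_ ?_ ?_ <;> ring
  have h6 : J2 (𝓝 0) (fun s => s ^ 2 * (1 / (2 * n) * Es C c a (fun x => x ⬝ᵥ x) s)) _ _ _ :=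
    h5.mul le_rfl ((Es_jet hn h hI a pg_sq).const_mul (1 / (2 * (n : ℝ))))
  have h7 := h2.sub ((h3.add h4).sub h6)
  have hα : 0 < α / 2 := half_pos h.ha
  have e0 : entF (limDens 0 c C) = Real.log Z - E0 C c (fun x => c ⬝ᵥ x) := by
    have := ent_path h a (s := 0) (by rw [abs_zero]; exact hα.le)
    rw [fs_zero, Es_zero] at this
    rw [this, Mo_zero' h, E0_one h, ← hZd, mul_one]
    ring
  refine ⟨_, h7.congr ?_ ?_ rfl ?_⟩
  · filter_upwards [ball_mem_nhds (0 : ℝ) hα] with s hs
    rw [mem_ball, dist_zero_right, Real.norm_eq_abs] at hs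
    rw [ent_path h a hs.le]
  · rw [e0]
    ring
  · have e1 : kd a a = (1 : ℝ) := by simp [kd]
    rw [E0_sq h hI, e1]
    field_simp
    ring

/-! ### the determinant along the path -/

lemma logdet_eq {A : Mat n} (hA : A.PosDef) : Real.log A.det = Phi Real.log A 1 := by
  obtain ⟨L, β, hF⟩ := exists_Fr hA (B := 1) Matrix.isHermitian_one
  rw [Phi_eq hF]
  have h1 : L.det * A.det * L.det = 1 := by
    have := congrArg Matrix.det hF.hA
    rwa [Matrix.det_mul, Matrix.det_mul, Matrix.det_transpose, Matrix.det_one] at this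
  have h2 : L.det * (∏ i, β i) * L.det = 1 := by
    have := congrArg Matrix.det hF.hB
    rw [Matrix.det_mul, Matrix.det_mul, Matrix.det_transpose, Matrix.det_one,
      Matrix.det_diagonal] at this
    exact this.symm
  have hL : L.det ≠ 0 := by
    intro h0
    rw [h0, zero_mul, zero_mul] at h1
    exact zero_ne_one h1
  have h3 : A.det = ∏ i, β i := by
    have : L.det * A.det * L.det = L.det * (∏ i, β i) * L.det := h1.trans h2.symm
    exact mul_left_cancel₀ hL (mul_right_cancel₀ hL this)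
  rw [h3, Real.log_prod]
  intro i _ h0
  have : ∏ i, β i = 0 := Finset.prod_eq_zero (Finset.mem_univ i) h0
  rw [this, mul_zero, zero_mul] at h2
  exact zero_ne_one h2

lemma logdet_jet (hn : 0 < n) (h : Adm C c α b) (hI : Iso C c) (a : Fin n) :
    ∃ b' : ℝ, J2 (𝓝 0) (fun s => Real.log (covF (fs C c a s)).det) 0 b'
      ((A2 C c a).trace - 1 / 2 * ∑ i, ∑ j, slice (tt C c) a i j ^ 2) := by
  have hα : 0 < α / 2 := half_pos h.ha
  have hF : Fr (1 : Mat n) 1 1 (fun _ => 1) := ⟨by simp, by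
    rw [transpose_one, Matrix.one_mul, Matrix.mul_one]
    exact Matrix.diagonal_one.symm⟩
  have hev : ∀ᶠ t in 𝓝 (0 : ℝ), (covF (fs C c a t)).PosDef := by
    filter_upwards [ball_mem_nhds (0 : ℝ) hα] with s hs
    rw [mem_ball, dist_zero_right, Real.norm_eq_abs] at hs
    exact (good_path h a hs.le).covF_posDef
  have h1 := phi_jet2 (A := fun s => covF (fs C c a s)) (A0 := 1) (B := 1) (L := 1)
    (X := slice (tt C c) a) (Y := A2 C c a) (β := fun _ => 1) hF transpose_one
    (fun i j => cov_jet hn h hI a i j) (by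
      filter_upwards [hev] with t ht
      refine ⟨?_, exists_Fr ht Matrix.isHermitian_one⟩
      ext i j
      rw [transpose_apply]
      exact cov_symm _ _ _)
    (f := Real.log) (f1 := fun x => x⁻¹) (f2 := fun x => -(x ^ 2)⁻¹) (fun i => by
      filter_upwards [isOpen_ne.mem_nhds (one_ne_zero : (1 : ℝ) ≠ 0)] with x hx
      exact Real.hasDerivAt_log hx) (fun i => hasDerivAt_inv one_ne_zero)
  refine ⟨_, h1.congr ?_ ?_ rfl ?_⟩
  · filter_upwards [hev] with t ht
    exact (logdet_eq ht).symm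
  · simp
  · simp only [inv_one, one_mul, transpose_one, Matrix.mul_one, Matrix.trace,
      Matrix.diag_apply]
    have e1 : dd1 (fun x : ℝ => x⁻¹) (fun x => -(x ^ 2)⁻¹) 1 1 = -1 := by
      unfold dd1
      simp
    rw [e1]
    have e2 : ∀ i j, slice (tt C c) a j i = slice (tt C c) a i j := fun i j => by
      unfold slice
      rw [of_apply, of_apply, tt_comm23]
    simp only [e2]
    have e3 : ∑ i, ∑ j, -1 * slice (tt C c) a i j * slice (tt C c) a i j
        = - ∑ i, ∑ j, slice (tt C c) a i j ^ 2 := by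
      simp only [← Finset.sum_neg_distrib]
      exact Finset.sum_congr rfl fun i _ => Finset.sum_congr rfl fun j _ => by ring
    rw [e3]
    ring

/-- the 2-jet of `D` along the path, base density with `D = 0` -/
lemma DD_jet (hn : 0 < n) (h : Adm C c α b) (hI : Iso C c) (hD : DD (limDens 0 c C) = 0)
    (a : Fin n) :
    ∃ b' : ℝ, J2 (𝓝 0) (fun s => DD (fs C c a s)) 0 b'
      (-(qc C c a fun x => c ⬝ᵥ x) - 1 / 2 - 1 / 2 * ((A2 C c a).trace
        - 1 / 2 * ∑ i, ∑ j, slice (tt C c) a i j ^ 2)) := by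
  obtain ⟨b1, h1⟩ := ent_jet hn h hI a
  obtain ⟨b2, h2⟩ := logdet_jet hn h hI a
  have h3 := (h1.sub (h2.const_mul (1 / 2))).sub (J2.const (n : ℝ))
  refine ⟨_, h3.congr (Eventually.of_forall fun s => rfl) ?_ rfl ?_⟩
  · have hcov : covF (limDens 0 c C) = 1 := by
      ext i j
      have e1 := hI.m2 i j
      have e2 := hI.m1 i
      unfold E0 at e1 e2
      unfold covF
      rw [of_apply, e1, e2, zero_mul, sub_zero, Matrix.one_apply]
    unfold DD at hD
    rw [hcov, Matrix.det_one, Real.log_one] at hD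
    linarith
  · ring

/-- `4 n ≤ ‖T‖²` -/
theorem four_n_le (hn : 0 < n) (hZ : LimZ n) (h : Adm C c α b) (hI : Iso C c)
    (hD : DD (limDens 0 c C) = 0) : 4 * (n : ℝ) ≤ ∑ a, ∑ i, ∑ j, slice (tt C c) a i j ^ 2 := by
  have hn' : (0 : ℝ) < n := by exact_mod_cast hn
  have hα : 0 < α / 2 := half_pos h.ha
  refine le_of_forall_pos_lt_add fun ε hε => ?_
  obtain ⟨x0, hx0, hZ'⟩ := hZ (ε / (8 * n)) (by positivity)
  set δ := ε / (8 * n) with hδ
  choose b' hb' using fun a => DD_jet hn h hI hD a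
  have h5 : J2 (𝓝 0) (fun s : ℝ => s ^ 2) 0 0 1 := by
    refine (J2.id.mul le_rfl J2.id).congr (Eventually.of_forall fun s => ?_) ?_ ?_ ?_ <;> ring
  have htr : ∀ a, J2 (𝓝 0) (fun s => (covF (fs C c a s)).trace) (∑ i : Fin n, (1 : Mat n) i i)
      (∑ i, slice (tt C c) a i i) (∑ i, A2 C c a i i) := fun a =>
    J2.sum Finset.univ fun i _ => cov_jet hn h hI a i i
  have h6 : J2 (𝓝 0) (fun s => ∑ a, ((1 - δ) / n * (s ^ 2 * (covF (fs C c a s)).trace)
      - DD (fs C c a s))) _ _ _ :=
    J2.sum Finset.univ fun a _ => (((h5.mul le_rfl (htr a)).const_mul ((1 - δ) / n)).sub (hb' a))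
  have h7 := (h6.le_test (by
    have hev : ∀ᶠ s : ℝ in 𝓝 (0 : ℝ), ∀ a,
        (x0 • (1 : Mat n) - (s ^ 2 / n) • covF (fs C c a s)).PosSemidef := by
      rw [eventually_all]
      exact fun a => ev_small hn h hI a hx0
    filter_upwards [hev, ball_mem_nhds (0 : ℝ) hα] with s hs1 hs2
    rw [mem_ball, dist_zero_right, Real.norm_eq_abs] at hs2
    refine Finset.sum_le_sum fun a _ => ?_
    simp only [zero_mul, mul_zero, sub_zero]
    rw [sub_nonpos]
    rcases eq_or_ne s 0 with rfl | hs0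
    · rw [fs_zero, hD]
      simp
    · have ht : 0 < s ^ 2 / n := by positivity
      have := hZ' C _ _ _ (adm_path h a hs2.le) (s ^ 2 / n) ht (hs1 a)
      refine le_trans (le_of_eq ?_) this
      unfold fs
      ring)).2
  have e1 : ∑ i : Fin n, (1 : Mat n) i i = n := by simp
  simp only [e1, zero_mul, zero_add, add_zero, one_mul] at h7
  rw [Finset.sum_sub_distrib, Finset.sum_sub_distrib, Finset.sum_sub_distrib] at h7
  simp only [Finset.sum_const, Finset.card_univ, Fintype.card_fin, nsmul_eq_mul,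
    ← Finset.mul_sum, Finset.sum_neg_distrib, Finset.sum_sub_distrib] at h7
  rw [sum_qc hn h (pg_dot c)] at h7
  have e2 : ∑ a, (A2 C c a).trace = - n := by
    unfold Matrix.trace
    simp only [Matrix.diag_apply]
    rw [Finset.sum_comm]
    simp only [sum_A2 hn h]
    simp [kd]
  rw [e2] at h7
  have e3 : (n : ℝ) * ((1 - δ) / n * n) = n * (1 - δ) := by field_simp
  rw [e3] at h7
  have e4 : n * δ = ε / 8 := by rw [hδ]; field_simp
  nlinarith

end Vale.Agent.P254.Eq657
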