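import Vale.Agent.P254.H657.E2d
import Vale.Agent.P254.H657.E2alg

/-! P254, equality case, block E2, part e: jets of `NN (1 + s X) T T` and of the cubic trace. -/

open MeasureTheory Set Matrix Filter Topology Metric

namespace Vale.Agent.P254.Eq657

open R304
open L (Mat Ten NN N3 frT Vec J1 J2)

variable {n : ℕ}

/-! ### matrix jets -/

/-- 2-jets of matrices -/
def MJ (M : ℝ → Mat n) (M0 M1 M2 : Mat n) : Prop :=
  ∀ i j, J2 (𝓝 0) (fun s => M s i j) (M0 i j) (M1 i j) (M2 i j)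

variable {M N : ℝ → Mat n} {M0 M1 M2 N0 N1 N2 : Mat n}

lemma MJ.mul (h : MJ M M0 M1 M2) (k : MJ N N0 N1 N2) :
    MJ (fun s => M s * N s) (M0 * N0) (M0 * N1 + M1 * N0) (M0 * N2 + M1 * N1 + M2 * N0) := by
  intro i j
  have h1 := J2.sum Finset.univ (fun l _ => (h i l).mul le_rfl (k l j))
  refine h1.congr (Eventually.of_forall fun s => ?_) ?_ ?_ ?_
  · show ∑ l, M s i l * N s l j = (M s * N s) i j
    rw [Matrix.mul_apply]
  · rw [Matrix.mul_apply]
  · rw [Matrix.add_apply, Matrix.mul_apply, Matrix.mul_apply, ← Finset.sum_add_distrib]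
  · rw [Matrix.add_apply, Matrix.add_apply, Matrix.mul_apply, Matrix.mul_apply, Matrix.mul_apply,
      ← Finset.sum_add_distrib, ← Finset.sum_add_distrib]

lemma MJ.sub (h : MJ M M0 M1 M2) (k : MJ N N0 N1 N2) :
    MJ (fun s => M s - N s) (M0 - N0) (M1 - N1) (M2 - N2) := fun i j => (h i j).sub (k i j)

lemma MJ.sq_smul (h : MJ M M0 M1 M2) (r : ℝ) : MJ (fun s => (r * s ^ 2) • M s) 0 0 (r • M0) := by
  intro i j
  have h5 : J2 (𝓝 0) (fun s : ℝ => s ^ 2) 0 0 1 := by
    refine (J2.id.mul le_rfl J2.id).congr (Eventually.of_forall fun s => ?_) ?_ ?_ ?_ <;> ring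
  refine ((h5.const_mul r).mul le_rfl (h i j)).congr (Eventually.of_forall fun s => ?_) ?_ ?_ ?_
  · rfl
  · simp
  · simp
  · simp

lemma MJ.lin (X : Mat n) : MJ (fun s => 1 + s • X) 1 X 0 := by
  intro i j
  have h := (J2.const (l := 𝓝 0) ((1 : Mat n) i j)).add (J2.id.mul_const (X i j))
  refine h.congr (Eventually.of_forall fun s => rfl) ?_ ?_ ?_
  · ring
  · ring
  · simp

lemma MJ.trace (h : MJ M M0 M1 M2) : J2 (𝓝 0) (fun s => (M s).trace) M0.trace M1.trace M2.trace :=
  J2.sum Finset.univ fun i _ => h i i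

lemma MJ.cube (h : MJ M 1 M1 M2) : J2 (𝓝 0) (fun s => (M s ^ 3).trace) n (3 * M1.trace)
    (3 * M2.trace + 3 * (M1 * M1).trace) := by
  have h1 := ((h.mul h).mul h).trace
  refine h1.congr (Eventually.of_forall fun s => ?_) ?_ ?_ ?_
  · show (M s * M s * M s).trace = (M s ^ 3).trace
    rw [pow_three, Matrix.mul_assoc]
  · simp
  · simp only [Matrix.one_mul, Matrix.mul_one, Matrix.trace_add]
    ring
  · simp only [Matrix.one_mul, Matrix.mul_one, Matrix.trace_add, Matrix.add_mul]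
    ring

/-! ### tensor jets -/

/-- 2-jets of tensors -/
def TJ (T : ℝ → Ten n) (T0 T1 T2 : Ten n) : Prop :=
  ∀ i j k, J2 (𝓝 0) (fun s => T s i j k) (T0 i j k) (T1 i j k) (T2 i j k)

/-- action of a matrix on the slots -/
def m1 (P : Mat n) (T : Ten n) : Ten n := fun a b c => ∑ a', P a a' * T a' b c
def m2 (P : Mat n) (T : Ten n) : Ten n := fun a b c => ∑ b', P b b' * T a b' c
def m3 (P : Mat n) (T : Ten n) : Ten n := fun a b c => ∑ c', P c c' * T a b c'

/-- scalar product -/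
def ip (T T' : Ten n) : ℝ := ∑ a, ∑ b, ∑ c, T a b c * T' a b c

lemma NN_eq (P : Mat n) (T T' : Ten n) : NN P T T' = ip T (m3 P (m2 P (m1 P T'))) := by
  unfold NN N3 ip m3 m2 m1
  refine Finset.sum_congr rfl fun a _ => Finset.sum_congr rfl fun b _ =>
    Finset.sum_congr rfl fun c _ => ?_
  simp only [Finset.mul_sum]
  calc ∑ a', ∑ b', ∑ c', P a a' * P b b' * P c c' * T a b c * T' a' b' c'
      = ∑ a', ∑ c', ∑ b', P a a' * P b b' * P c c' * T a b c * T' a' b' c' :=
        Finset.sum_congr rfl fun a' _ => Finset.sum_comm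
    _ = ∑ c', ∑ a', ∑ b', P a a' * P b b' * P c c' * T a b c * T' a' b' c' := Finset.sum_comm
    _ = ∑ c', ∑ b', ∑ a', P a a' * P b b' * P c c' * T a b c * T' a' b' c' :=
        Finset.sum_congr rfl fun c' _ => Finset.sum_comm
    _ = _ := Finset.sum_congr rfl fun c' _ => Finset.sum_congr rfl fun b' _ =>
        Finset.sum_congr rfl fun a' _ => by ring

variable {T : ℝ → Ten n} {T0 T1 T2 : Ten n}

lemma TJ.m1 (h : TJ T T0 T1 T2) (X : Mat n) :
    TJ (fun s => m1 (1 + s • X) (T s)) T0 (fun a b c => T1 a b c + m1 X T0 a b c)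
      (fun a b c => T2 a b c + m1 X T1 a b c) := by
  intro a b c
  have h1 := J2.sum Finset.univ (fun a' _ => (MJ.lin X a a').mul le_rfl (h a' b c))
  refine h1.congr (Eventually.of_forall fun s => rfl) ?_ ?_ ?_
  · simp [Matrix.one_apply]
  · rw [Finset.sum_add_distrib]
    simp [Matrix.one_apply, Eq657.m1]
  · rw [Finset.sum_add_distrib, Finset.sum_add_distrib]
    simp [Matrix.one_apply, Eq657.m1]

lemma TJ.m2 (h : TJ T T0 T1 T2) (X : Mat n) :
    TJ (fun s => m2 (1 + s • X) (T s)) T0 (fun a b c => T1 a b c + m2 X T0 a b c)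
      (fun a b c => T2 a b c + m2 X T1 a b c) := by
  intro a b c
  have h1 := J2.sum Finset.univ (fun b' _ => (MJ.lin X b b').mul le_rfl (h a b' c))
  refine h1.congr (Eventually.of_forall fun s => rfl) ?_ ?_ ?_
  · simp [Matrix.one_apply]
  · rw [Finset.sum_add_distrib]
    simp [Matrix.one_apply, Eq657.m2]
  · rw [Finset.sum_add_distrib, Finset.sum_add_distrib]
    simp [Matrix.one_apply, Eq657.m2]

lemma TJ.m3 (h : TJ T T0 T1 T2) (X : Mat n) :
    TJ (fun s => m3 (1 + s • X) (T s)) T0 (fun a b c => T1 a b c + m3 X T0 a b c)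
      (fun a b c => T2 a b c + m3 X T1 a b c) := by
  intro a b c
  have h1 := J2.sum Finset.univ (fun c' _ => (MJ.lin X c c').mul le_rfl (h a b c'))
  refine h1.congr (Eventually.of_forall fun s => rfl) ?_ ?_ ?_
  · simp [Matrix.one_apply]
  · rw [Finset.sum_add_distrib]
    simp [Matrix.one_apply, Eq657.m3]
  · rw [Finset.sum_add_distrib, Finset.sum_add_distrib]
    simp [Matrix.one_apply, Eq657.m3]

lemma TJ.ip {T' : ℝ → Ten n} {T0' T1' T2' : Ten n} (h : TJ T T0 T1 T2)
    (k : TJ T' T0' T1' T2') : J2 (𝓝 0) (fun s => ip (T s) (T' s)) (ip T0 T0')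
      (ip T0 T1' + ip T1 T0') (ip T0 T2' + ip T1 T1' + ip T2 T0') := by
  have h1 := J2.sum Finset.univ (fun a _ => J2.sum Finset.univ (fun b _ =>
    J2.sum Finset.univ (fun c _ => (h a b c).mul le_rfl (k a b c))))
  refine h1.congr (Eventually.of_forall fun s => rfl) rfl ?_ ?_
  · unfold Eq657.ip
    simp only [← Finset.sum_add_distrib]
  · unfold Eq657.ip
    simp only [← Finset.sum_add_distrib]

/-! ### bilinear algebra -/

lemma ip_comm (T T' : Ten n) : ip T T' = ip T' T := by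
  unfold ip
  exact Finset.sum_congr rfl fun a _ => Finset.sum_congr rfl fun b _ =>
    Finset.sum_congr rfl fun c _ => mul_comm _ _

lemma ip_add (T T' T'' : Ten n) : ip T (fun a b c => T' a b c + T'' a b c) = ip T T' + ip T T'' := by
  unfold ip
  simp only [mul_add, Finset.sum_add_distrib]

lemma m2_add (X : Mat n) (T T' : Ten n) (a b c : Fin n) :
    m2 X (fun a b c => T a b c + T' a b c) a b c = m2 X T a b c + m2 X T' a b c := by
  unfold m2
  simp only [mul_add, Finset.sum_add_distrib]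

lemma m3_add (X : Mat n) (T T' : Ten n) (a b c : Fin n) :
    m3 X (fun a b c => T a b c + T' a b c) a b c = m3 X T a b c + m3 X T' a b c := by
  unfold m3
  simp only [mul_add, Finset.sum_add_distrib]

/-- symmetry of `m1` for the scalar product -/
lemma ip_m1 {X : Mat n} (hX : ∀ i j, X i j = X j i) (T T' : Ten n) :
    ip T (m1 X T') = ip (m1 X T) T' := by
  unfold ip m1
  simp only [Finset.mul_sum, Finset.sum_mul]
  have e : ∀ F : Fin n → Fin n → Fin n → Fin n → ℝ,
      ∑ a, ∑ b, ∑ c, ∑ a', F a b c a' = ∑ a', ∑ b, ∑ c, ∑ a, F a b c a' := by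
    intro F
    calc ∑ a, ∑ b, ∑ c, ∑ a', F a b c a' = ∑ a, ∑ b, ∑ a', ∑ c, F a b c a' :=
          Finset.sum_congr rfl fun a _ => Finset.sum_congr rfl fun b _ => Finset.sum_comm
      _ = ∑ a, ∑ a', ∑ b, ∑ c, F a b c a' := Finset.sum_congr rfl fun a _ => Finset.sum_comm
      _ = ∑ a', ∑ a, ∑ b, ∑ c, F a b c a' := Finset.sum_comm
      _ = ∑ a', ∑ b, ∑ a, ∑ c, F a b c a' := Finset.sum_congr rfl fun a _ => Finset.sum_comm
      _ = _ := Finset.sum_congr rfl fun a _ => Finset.sum_congr rfl fun b _ => Finset.sum_comm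
  rw [e]
  refine Finset.sum_congr rfl fun a _ => Finset.sum_congr rfl fun b _ =>
    Finset.sum_congr rfl fun c _ => Finset.sum_congr rfl fun a' _ => ?_
  rw [hX a' a]
  ring

lemma ip_swap12 (T T' : Ten n) : ip T T' = ip (fun a b c => T b a c) fun a b c => T' b a c := by
  unfold ip
  rw [Finset.sum_comm]

lemma ip_swap23 (T T' : Ten n) : ip T T' = ip (fun a b c => T a c b) fun a b c => T' a c b := by
  unfold ip
  exact Finset.sum_congr rfl fun a _ => by rw [Finset.sum_comm]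

lemma m2_swap {T : Ten n} (h : ∀ i j k, T i j k = T j i k) (X : Mat n) (a b c : Fin n) :
    m2 X T b a c = m1 X T a b c := by
  unfold m2 m1
  exact Finset.sum_congr rfl fun b' _ => by rw [h b b' c]

lemma m3_swap {T : Ten n} (h : ∀ i j k, T i j k = T i k j) (X : Mat n) (a b c : Fin n) :
    m3 X T a c b = m2 X T a b c := by
  unfold m3 m2
  exact Finset.sum_congr rfl fun b' _ => by rw [h a c b']

/-- `⟨T, m2 X T'⟩ = ⟨T, m1 X T'⟩` for symmetric tensors -/
lemma ip_m2 {T T' : Ten n} (hT : ∀ i j k, T i j k = T j i k) (hT' : ∀ i j k, T' i j k = T' j i k)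
    (X : Mat n) : ip T (m2 X T') = ip T (m1 X T') := by
  rw [ip_swap12]
  have e1 : (fun a b c => T b a c) = T := by
    ext a b c
    exact (hT a b c).symm
  have e2 : (fun a b c => m2 X T' b a c) = m1 X T' := by
    ext a b c
    exact m2_swap hT' X a b c
  rw [e1, e2]

lemma ip_m3 {T T' : Ten n} (hT : ∀ i j k, T i j k = T i k j) (hT' : ∀ i j k, T' i j k = T' i k j)
    (X : Mat n) : ip T (m3 X T') = ip T (m2 X T') := by
  rw [ip_swap23]
  have e1 : (fun a b c => T a c b) = T := by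
    ext a b c
    exact (hT a b c).symm
  have e2 : (fun a b c => m3 X T' a c b) = m2 X T' := by
    ext a b c
    exact m3_swap hT' X a b c
  rw [e1, e2]

/-- the three second order terms agree -/
lemma ip_m31 {T : Ten n} (h : L.TSymm T) (X : Mat n) :
    ip T (m3 X (m1 X T)) = ip T (m2 X (m1 X T)) := by
  rw [ip_swap23]
  have e1 : (fun a b c => T a c b) = T := by
    ext a b c
    exact (h.2 a b c).symm
  have e2 : (fun a b c => m3 X (m1 X T) a c b) = m2 X (m1 X T) := by
    ext a b c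
    unfold m3 m2 m1
    refine Finset.sum_congr rfl fun b' _ => ?_
    congr 1
    exact Finset.sum_congr rfl fun a' _ => by rw [h.2 a' c b']
  rw [e1, e2]

lemma ip_m32 {T : Ten n} (h : L.TSymm T) (X : Mat n) :
    ip T (m3 X (m2 X T)) = ip T (m2 X (m1 X T)) := by
  have e0 : ip T (m3 X (m2 X T)) = ip T (m3 X (m1 X T)) := by
    rw [ip_swap12]
    have e1 : (fun a b c => T b a c) = T := by
      ext a b c
      exact (h.1 a b c).symm
    have e2 : (fun a b c => m3 X (m2 X T) b a c) = m3 X (m1 X T) := by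
      ext a b c
      unfold m3 m2 m1
      refine Finset.sum_congr rfl fun b' _ => ?_
      congr 1
      exact Finset.sum_congr rfl fun a' _ => by rw [h.1 b a' b']
    rw [e1, e2]
  rw [e0, ip_m31 h]

/-- the 2-jet of `⟨T, P ⊗ P ⊗ P T⟩`, `P = 1 + s X` -/
lemma NN_jet (h : TJ T T0 T1 T2) (hT : L.TSymm T0) (hK : L.TSymm T1) {X : Mat n}
    (hX : ∀ i j, X i j = X j i) :
    J2 (𝓝 0) (fun s => NN (1 + s • X) (T s) (T s)) (ip T0 T0)
      (2 * ip T0 T1 + 3 * ip T0 (m1 X T0))
      (2 * ip T0 T2 + ip T1 T1 + 6 * ip T1 (m1 X T0) + 3 * ip T0 (m2 X (m1 X T0))) := by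
  have h1 := h.ip (((h.m1 X).m2 X).m3 X)
  refine h1.congr (Eventually.of_forall fun s => (NN_eq _ _ _).symm) rfl ?_ ?_
  · simp only [ip_add]
    rw [ip_comm T1 T0, ip_m3 hT.2 hT.2, ip_m2 hT.1 hT.1]
    ring
  simp only [ip_add, m2_add, m3_add]
  rw [ip_comm T2 T0, ip_m31 hT, ip_m32 hT, ip_m3 hT.2 hK.2, ip_m2 hT.1 hK.1, ip_m3 hK.2 hT.2,
    ip_m2 hK.1 hT.1]
  have e1 : ip T0 (m1 X T1) = ip T1 (m1 X T0) := by rw [ip_m1 hX, ip_comm]
  rw [e1]
  ring

lemma MJ.congr (h : MJ M M0 M1 M2) (e0 : M0 = N0) (e1 : M1 = N1) (e2 : M2 = N2) :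
    MJ M N0 N1 N2 := by
  subst e0 e1 e2
  exact h

/-- the tetrahedral sum -/
lemma tau_sum {T : Ten n} (hT : L.TSymm T) :
    ∑ a, ip T (m2 (slice T a) (m1 (slice T a) T)) =
      S4 fun a i j k => GG T a i j k * GG T a j i k := by
  unfold S4
  refine Finset.sum_congr rfl fun a _ => ?_
  unfold ip
  refine Finset.sum_congr rfl fun i _ => ?_
  have e1 : ∑ j, ∑ k, T i j k * m2 (slice T a) (m1 (slice T a) T) i j k =
      S4 fun j k j' i' => T i j k * (T a j j' * (T a i i' * T i' j' k)) := by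
    unfold S4 m2 m1 slice
    refine Finset.sum_congr rfl fun j _ => Finset.sum_congr rfl fun k _ => ?_
    simp only [Finset.mul_sum, of_apply]
  have e2 : ∑ j, ∑ k, GG T a i j k * GG T a j i k =
      S4 fun j k m m' => T i m' k * (T a m' j * (T a i m * T m j k)) := by
    unfold S4 GG
    refine Finset.sum_congr rfl fun j _ => Finset.sum_congr rfl fun k _ => ?_
    rw [Finset.sum_mul_sum]
    refine Finset.sum_congr rfl fun m _ => Finset.sum_congr rfl fun m' _ => ?_
    rw [hT.2 a j m', hT.1 m' i k]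
    ring
  rw [e1, e2]
  conv_rhs => rw [S4_swap34, S4_swap23, S4_swap12, S4_swap23]

lemma ip_sum {ι : Type*} (S : Finset ι) (T : Ten n) (f : ι → Ten n) :
    ∑ a ∈ S, ip T (f a) = ip T fun i j k => ∑ a ∈ S, f a i j k := by
  unfold ip
  simp only [Finset.mul_sum]
  rw [Finset.sum_comm]
  refine Finset.sum_congr rfl fun i _ => ?_
  rw [Finset.sum_comm]
  refine Finset.sum_congr rfl fun j _ => ?_
  rw [Finset.sum_comm]

lemma psd_near {X : Mat n} (hX : ∀ i j, X i j = X j i) :
    ∀ᶠ s : ℝ in 𝓝 (0 : ℝ), (1 + s • X).PosSemidef := by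
  obtain ⟨B, hB⟩ : ∃ B : ℝ, B = 1 + ∑ i, ∑ j, |X i j| := ⟨_, rfl⟩
  have hsum : 0 ≤ ∑ i, ∑ j, |X i j| :=
    Finset.sum_nonneg fun i _ => Finset.sum_nonneg fun j _ => abs_nonneg _
  have hB0 : 0 < B := by rw [hB]; linarith
  have hXB : ∀ i j, |X i j| ≤ B := by
    intro i j
    have h1 : |X i j| ≤ ∑ j, |X i j| :=
      Finset.single_le_sum (f := fun j => |X i j|) (fun _ _ => abs_nonneg _) (Finset.mem_univ j)
    have h2 : ∑ j, |X i j| ≤ ∑ i, ∑ j, |X i j| :=
      Finset.single_le_sum (f := fun i => ∑ j, |X i j|)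
        (fun _ _ => Finset.sum_nonneg fun _ _ => abs_nonneg _) (Finset.mem_univ i)
    rw [hB]
    linarith
  have h3 : ∀ᶠ s : ℝ in 𝓝 (0 : ℝ), 2 * n * (|s| * B) ≤ 1 := by
    have h5 : Tendsto (fun s : ℝ => 2 * n * (|s| * B)) (𝓝 0)
        (𝓝 (2 * (n : ℝ) * (|(0 : ℝ)| * B))) := by
      apply Continuous.tendsto
      fun_prop
    have h6 : 2 * (n : ℝ) * (|(0 : ℝ)| * B) < 1 := by simp
    exact (h5.eventually (gt_mem_nhds h6)).mono fun s hs => hs.le
  filter_upwards [h3] with s hs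
  have h7 := psd_small (A := (-(SignType.sign s : ℝ) / B) • X) (t := |s| * B) (x0 := 1) (by
      intro i j
      rw [Matrix.smul_apply, Matrix.smul_apply, hX i j]) (by
      intro i j
      rw [Matrix.smul_apply, smul_eq_mul, abs_mul, abs_div, abs_neg, abs_of_pos hB0]
      have h8 : |(SignType.sign s : ℝ)| ≤ 1 := by
        rcases lt_trichotomy s 0 with h | h | h
        · simp [sign_neg h]
        · simp [h]
        · simp [sign_pos h]
      have h9 := hXB i j
      rw [div_mul_eq_mul_div, div_le_iff₀ hB0]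
      nlinarith [abs_nonneg (X i j), abs_nonneg (SignType.sign s : ℝ)]) (by positivity) hs
  have e : (1 : ℝ) • (1 : Mat n) - (|s| * B) • ((-(SignType.sign s : ℝ) / B) • X) = 1 + s • X := by
    rw [one_smul, smul_smul]
    have e1 : |s| * B * (-(SignType.sign s : ℝ) / B) = -s := by
      have : |s| * (SignType.sign s : ℝ) = s := by
        rw [mul_comm]
        exact sign_mul_abs s
      field_simp
      linarith
    rw [e1, neg_smul, sub_neg_eq_add]
  rwa [e] at h7

end Vale.Agent.P254.Eq657
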