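import Vale.Agent.P254.H657.E2e

/-! P254, equality case, block E2, part f: the slices commute. -/

open MeasureTheory Set Matrix Filter Topology Metric

namespace Vale.Agent.P254.Eq657

open R304
open L (Mat Ten NN N3 frT Vec J1 J2)

variable {n : ℕ} {C : Set (Fin n → ℝ)} {c : Fin n → ℝ} {α b : ℝ}

lemma tt_symm : L.TSymm (tt C c) := ⟨fun i j k => tt_comm12 i j k, fun i j k => tt_comm23 i j k⟩

lemma kk_symm (a : Fin n) : L.TSymm (kk C c a) := by
  constructor
  · intro i j k
    unfold kk
    have e : (fun x : Fin n → ℝ => x i * x j * x k * x a) = fun x => x j * x i * x k * x a := by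
      ext x; ring
    rw [e, kd_comm j i]
    ring
  · intro i j k
    unfold kk
    have e : (fun x : Fin n → ℝ => x i * x j * x k * x a) = fun x => x i * x k * x j * x a := by
      ext x; ring
    rw [e, kd_comm k j]
    ring

lemma slice_symm (a i j : Fin n) : slice (tt C c) a i j = slice (tt C c) a j i := by
  unfold slice
  rw [of_apply, of_apply, tt_comm23]

lemma continuous_NN (P : Mat n) : Continuous fun T : Ten n => NN P T T := by
  unfold NN N3
  fun_prop

/-- `(P)` at `B = 0` -/
theorem pineq0 (hn : 0 < n) (hP : LimP n) (h : Adm C c α b) (hI : Iso C c) {P : Mat n}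
    (hPs : P.PosSemidef) : NN P (tt C c) (tt C c) ≤ 4 * (P ^ 3).trace := by
  have hα : 0 < α / 2 := half_pos h.ha
  obtain ⟨x0, hx0, hP'⟩ := hP 1 one_pos
  set a : Fin n := ⟨0, hn⟩ with ha
  have hT : Tendsto (fun s => T3 (fs C c a s)) (𝓝[≠] (0 : ℝ)) (𝓝 (tt C c)) := by
    refine tendsto_pi_nhds.2 fun i => tendsto_pi_nhds.2 fun j => tendsto_pi_nhds.2 fun k => ?_
    exact ((T3_jet hn h hI a i j k).tendsto le_rfl).mono_left nhdsWithin_le_nhds
  have hA : Tendsto (fun s => covF (fs C c a s)) (𝓝[≠] (0 : ℝ)) (𝓝 1) := by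
    refine tendsto_pi_nhds.2 fun i => tendsto_pi_nhds.2 fun j => ?_
    exact ((cov_jet hn h hI a i j).tendsto le_rfl).mono_left nhdsWithin_le_nhds
  have hs : Tendsto (fun s : ℝ => s) (𝓝[≠] (0 : ℝ)) (𝓝 0) :=
    tendsto_id.mono_left nhdsWithin_le_nhds
  have h1 : Tendsto (fun s => NN P (T3 (fs C c a s)) (T3 (fs C c a s))) (𝓝[≠] (0 : ℝ))
      (𝓝 (NN P (tt C c) (tt C c))) := ((continuous_NN P).tendsto _).comp hT
  have h2 : Tendsto (fun s => 4 * (((covF (fs C c a s) - ((2 - 1) * (s ^ 2 / n)) •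
      (covF (fs C c a s) * covF (fs C c a s))) * P) ^ 3).trace) (𝓝[≠] (0 : ℝ))
      (𝓝 (4 * ((((1 : Mat n) - ((2 - 1) * ((0 : ℝ) ^ 2 / n)) • ((1 : Mat n) * 1)) * P) ^ 3).trace))
      := by
    have hr : Tendsto (fun s : ℝ => (2 - 1) * (s ^ 2 / (n : ℝ))) (𝓝[≠] (0 : ℝ))
        (𝓝 ((2 - 1) * ((0 : ℝ) ^ 2 / n))) := ((hs.pow 2).div_const _).const_mul _
    have h8 : Tendsto (fun s => (covF (fs C c a s) - ((2 - 1) * (s ^ 2 / n)) •
        (covF (fs C c a s) * covF (fs C c a s))) * P) (𝓝[≠] (0 : ℝ))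
        (𝓝 (((1 : Mat n) - ((2 - 1) * ((0 : ℝ) ^ 2 / n)) • ((1 : Mat n) * 1)) * P)) :=
      (hA.sub (hr.smul (hA.mul hA))).mul tendsto_const_nhds
    have h9 : Continuous fun M : Mat n => M.trace := continuous_id.matrix_trace
    exact ((h9.tendsto _).comp (h8.pow 3)).const_mul 4
  have h3 := le_of_tendsto_of_tendsto h1 h2 (by
    have hsm := (ev_small hn h hI a hx0).filter_mono (nhdsWithin_le_nhds (s := {(0 : ℝ)}ᶜ))
    have hb : ∀ᶠ s : ℝ in 𝓝[≠] (0 : ℝ), |s| < α / 2 := by
      refine Filter.Eventually.filter_mono nhdsWithin_le_nhds ?_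
      filter_upwards [ball_mem_nhds (0 : ℝ) hα] with s hs
      rwa [mem_ball, dist_zero_right, Real.norm_eq_abs] at hs
    filter_upwards [hsm, hb, self_mem_nhdsWithin] with s h4 h5 h6
    have hs0 : s ≠ 0 := h6
    have hn' : (0 : ℝ) < n := by exact_mod_cast hn
    exact hP' C _ _ _ (adm_path h a h5.le) (s ^ 2 / n) (by positivity) h4 P hPs)
  simpa using h3

lemma ip_slice : ip (tt C c) (tt C c) = ∑ a, ∑ i, ∑ j, slice (tt C c) a i j ^ 2 := by
  unfold ip slice
  simp only [of_apply, sq]

lemma NN_one (T : Ten n) : NN 1 T T = ip T T := by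
  rw [NN_eq]
  congr 1
  ext a b c
  simp [m3, m2, m1, Matrix.one_apply]

/-- `‖T‖² = 4 n` -/
theorem ip_eq (hn : 0 < n) (hP : LimP n) (hZ : LimZ n) (h : Adm C c α b) (hI : Iso C c)
    (hD : DD (limDens 0 c C) = 0) : ip (tt C c) (tt C c) = 4 * n := by
  apply le_antisymm
  · have h1 := pineq0 hn hP h hI Matrix.PosSemidef.one
    rw [NN_one] at h1
    simpa using h1
  · rw [ip_slice]
    exact four_n_le hn hZ h hI hD

lemma const_TJ (T : Ten n) : TJ (fun _ => T) T 0 0 := fun i j k => J2.const (T i j k)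

lemma const_MJ_lin (Y : Mat n) : MJ (fun s => 1 + s • Y) 1 Y 0 := MJ.lin Y

/-- the first order condition in `P` -/
theorem first_order (hn : 0 < n) (hP : LimP n) (hZ : LimZ n) (h : Adm C c α b) (hI : Iso C c)
    (hD : DD (limDens 0 c C) = 0) {Y : Mat n} (hY : ∀ i j, Y i j = Y j i) :
    ip (tt C c) (m1 Y (tt C c)) = 4 * Y.trace := by
  have h0 : L.TSymm (0 : Ten n) := ⟨fun _ _ _ => rfl, fun _ _ _ => rfl⟩
  have h1 := (NN_jet (const_TJ (tt C c)) tt_symm h0 hY).sub ((const_MJ_lin Y).cube.const_mul 4)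
  have h2 := (h1.le_test (by
    filter_upwards [psd_near hY] with s hs
    rw [ip_eq hn hP hZ h hI hD]
    have := pineq0 hn hP h hI hs
    linarith)).1
  have e0 : ip (tt C c) (0 : Ten n) = 0 := by
    unfold ip
    simp
  rw [e0] at h2
  linarith

theorem hM (hn : 0 < n) (hP : LimP n) (hZ : LimZ n) (h : Adm C c α b) (hI : Iso C c)
    (hD : DD (limDens 0 c C) = 0) (m m' : Fin n) :
    ∑ a, ∑ i, tt C c a i m * tt C c a i m' = if m = m' then 4 else 0 := by
  have e1 : ∀ m m', ∑ b, ∑ c', tt C c m b c' * tt C c m' b c' =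
      ∑ a, ∑ i, tt C c a i m * tt C c a i m' := by
    intro m m'
    refine Finset.sum_congr rfl fun a _ => Finset.sum_congr rfl fun i _ => ?_
    have e : ∀ m, tt C c m a i = tt C c a i m := fun m => by
      rw [tt_comm12, tt_comm23]
    rw [e m, e m']
  have h1 := first_order hn hP hZ h hI hD (Y := Matrix.of fun i j =>
    kd i m * kd j m' + kd i m' * kd j m) (fun i j => by
      rw [of_apply, of_apply]
      ring)
  have h2 : ip (tt C c) (m1 (Matrix.of fun i j => kd i m * kd j m' + kd i m' * kd j m) (tt C c)) =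
      2 * ∑ b, ∑ c', tt C c m b c' * tt C c m' b c' := by
    unfold ip m1
    have e2 : ∀ a b c', tt C c a b c' * (∑ a', (Matrix.of fun i j =>
        kd i m * kd j m' + kd i m' * kd j m) a a' * tt C c a' b c') =
        tt C c a b c' * (kd a m * tt C c m' b c' + kd a m' * tt C c m b c') := by
      intro a b c'
      congr 1
      simp only [of_apply, add_mul, Finset.sum_add_distrib]
      congr 1
      · simp [kd]
      · simp [kd]
    simp only [e2]
    rw [Finset.sum_comm]
    have e3 : ∀ b c', ∑ a, tt C c a b c' * (kd a m * tt C c m' b c' + kd a m' * tt C c m b c') =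
        2 * (tt C c m b c' * tt C c m' b c') := by
      intro b c'
      simp only [mul_add, Finset.sum_add_distrib]
      simp [kd]
      ring
    rw [Finset.mul_sum]
    refine Finset.sum_congr rfl fun b _ => ?_
    rw [Finset.sum_comm, Finset.mul_sum]
    exact Finset.sum_congr rfl fun c' _ => e3 b c'
  have h3 : (Matrix.of fun i j : Fin n => kd i m * kd j m' + kd i m' * kd j m).trace =
      2 * kd m m' := by
    unfold Matrix.trace
    simp only [Matrix.diag_apply, of_apply, Finset.sum_add_distrib]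
    simp [kd, eq_comm]
    split_ifs <;> ring
  rw [h2, h3, e1] at h1
  unfold kd at h1
  split_ifs with hm
  · rw [if_pos hm] at h1
    linarith
  · rw [if_neg hm] at h1
    linarith

/-- the key inequality -/
theorem key (hn : 0 < n) (hP : LimP n) (hZ : LimZ n) (h : Adm C c α b) (hI : Iso C c)
    (hD : DD (limDens 0 c C) = 0) (δ : ℝ) (hδ : 0 < δ) :
    24 * n - 12 * δ * n + S4 (fun a i j k => kk C c a i j k ^ 2)
      - 3 * S4 (fun a i j k => kk C c a i j k * GG (tt C c) a i j k)
      + 3 / 4 * S4 (fun a i j k => GG (tt C c) a i j k * GG (tt C c) a j i k) ≤ 0 := by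
  have hn' : (0 : ℝ) < n := by exact_mod_cast hn
  have hα : 0 < α / 2 := half_pos h.ha
  obtain ⟨x0, hx0, hP'⟩ := hP δ hδ
  obtain ⟨X, hX⟩ : ∃ X : Fin n → Mat n, ∀ a, X a = (-(1 / 2) : ℝ) • slice (tt C c) a :=
    ⟨_, fun _ => rfl⟩
  have hXs : ∀ a i j, X a i j = X a j i := fun a i j => by
    rw [hX, Matrix.smul_apply, Matrix.smul_apply, slice_symm]
  have hTJ : ∀ a, TJ (fun s => T3 (fs C c a s)) (tt C c) (kk C c a) (T2 C c a) :=
    fun a i j k => T3_jet hn h hI a i j k
  have hA : ∀ a, MJ (fun s => covF (fs C c a s)) 1 (slice (tt C c) a) (A2 C c a) :=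
    fun a i j => cov_jet hn h hI a i j
  set κ : ℝ := (2 - δ) / n with hκ
  have hMJ : ∀ a, MJ (fun s => (covF (fs C c a s) - (κ * s ^ 2) • (covF (fs C c a s)
      * covF (fs C c a s))) * (1 + s • X a)) 1 (slice (tt C c) a + X a)
      (slice (tt C c) a * X a + (A2 C c a - κ • 1)) := by
    intro a
    refine (((hA a).sub (((hA a).mul (hA a)).sq_smul κ)).mul (MJ.lin (X a))).congr ?_ ?_ ?_
    · simp
    · simp [add_comm]
    · simp
  have hJ : ∀ a, J2 (𝓝 0) (fun s => NN (1 + s • X a) (T3 (fs C c a s)) (T3 (fs C c a s))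
      - 4 * (((covF (fs C c a s) - (κ * s ^ 2) • (covF (fs C c a s)
      * covF (fs C c a s))) * (1 + s • X a)) ^ 3).trace) _ _ _ := fun a =>
    (NN_jet (hTJ a) tt_symm (kk_symm a) (hXs a)).sub ((hMJ a).cube.const_mul 4)
  have hS := J2.sum Finset.univ fun a _ => hJ a
  have h7 := (hS.le_test (by
    have hev : ∀ᶠ s : ℝ in 𝓝 (0 : ℝ), ∀ a,
        (x0 • (1 : Mat n) - (s ^ 2 / n) • covF (fs C c a s)).PosSemidef := by
      rw [eventually_all]
      exact fun a => ev_small hn h hI a hx0
    have hev2 : ∀ᶠ s : ℝ in 𝓝 (0 : ℝ), ∀ a, (1 + s • X a).PosSemidef := by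
      rw [eventually_all]
      exact fun a => psd_near (hXs a)
    filter_upwards [hev, hev2, ball_mem_nhds (0 : ℝ) hα] with s hs1 hs3 hs2
    rw [mem_ball, dist_zero_right, Real.norm_eq_abs] at hs2
    refine Finset.sum_le_sum fun a _ => ?_
    rw [ip_eq hn hP hZ h hI hD, sub_self]
    rw [sub_nonpos]
    rcases eq_or_ne s 0 with rfl | hs0
    · have e1 : T3 (fs C c a 0) = tt C c := by rw [fs_zero, T3_zero hI]
      have e2 : covF (fs C c a 0) = 1 := by
        ext i j
        have e1 := hI.m2 i j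
        have e2 := hI.m1 i
        unfold E0 at e1 e2
        rw [fs_zero]
        unfold covF
        rw [of_apply, e1, e2, zero_mul, sub_zero, Matrix.one_apply]
      rw [e1, e2, zero_smul, add_zero, NN_one, ip_eq hn hP hZ h hI hD]
      simp
    · have ht : 0 < s ^ 2 / n := by positivity
      have := hP' C _ _ _ (adm_path h a hs2.le) (s ^ 2 / n) ht (hs1 a) (1 + s • X a) (hs3 a)
      have e : (2 - δ) * (s ^ 2 / n) = κ * s ^ 2 := by rw [hκ]; ring
      rw [e] at this
      exact this)).2
  -- the sums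
  have s1 : ∑ a, ip (tt C c) (T2 C c a) = -(12 * n) := by
    rw [ip_sum]
    simp only [sum_T2 hn h]
    have e : ip (tt C c) (fun i j k => -3 * tt C c i j k) = -3 * ip (tt C c) (tt C c) := by
      unfold ip
      simp only [Finset.mul_sum]
      exact Finset.sum_congr rfl fun a _ => Finset.sum_congr rfl fun b _ =>
        Finset.sum_congr rfl fun c _ => by ring
    rw [e, ip_eq hn hP hZ h hI hD]
    ring
  have s2 : ∑ a, ip (kk C c a) (kk C c a) = S4 fun a i j k => kk C c a i j k ^ 2 := by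
    unfold ip S4
    simp only [sq]
  have hm1 : ∀ a T, m1 (X a) T = fun i j k => (-(1 / 2) : ℝ) * m1 (slice (tt C c) a) T i j k := by
    intro a T
    ext i j k
    unfold m1
    rw [hX, Finset.mul_sum]
    exact Finset.sum_congr rfl fun m _ => by
      rw [Matrix.smul_apply, smul_eq_mul]
      ring
  have hm2 : ∀ a T, m2 (X a) T = fun i j k => (-(1 / 2) : ℝ) * m2 (slice (tt C c) a) T i j k := by
    intro a T
    ext i j k
    unfold m2
    rw [hX, Finset.mul_sum]
    exact Finset.sum_congr rfl fun m _ => by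
      rw [Matrix.smul_apply, smul_eq_mul]
      ring
  have hipc : ∀ (r : ℝ) (T T' : Ten n), ip T (fun i j k => r * T' i j k) = r * ip T T' := by
    intro r T T'
    unfold ip
    simp only [Finset.mul_sum]
    exact Finset.sum_congr rfl fun a _ => Finset.sum_congr rfl fun b _ =>
      Finset.sum_congr rfl fun c _ => by ring
  have s3 : ∑ a, ip (kk C c a) (m1 (X a) (tt C c)) =
      -(1 / 2) * S4 fun a i j k => kk C c a i j k * GG (tt C c) a i j k := by
    simp only [hm1, hipc]
    rw [← Finset.mul_sum]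
    congr 1
  have s4 : ∑ a, ip (tt C c) (m2 (X a) (m1 (X a) (tt C c))) =
      1 / 4 * S4 fun a i j k => GG (tt C c) a i j k * GG (tt C c) a j i k := by
    rw [← tau_sum tt_symm, Finset.mul_sum]
    refine Finset.sum_congr rfl fun a _ => ?_
    rw [hm2, hipc, hm1]
    have e : m2 (slice (tt C c) a) (fun i j k => (-(1 / 2) : ℝ) * m1 (slice (tt C c) a) (tt C c)
        i j k) = fun i j k => (-(1 / 2) : ℝ) * m2 (slice (tt C c) a) (m1 (slice (tt C c) a)
        (tt C c)) i j k := by
      ext i j k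
      unfold m2
      rw [Finset.mul_sum]
      exact Finset.sum_congr rfl fun m _ => by ring
    rw [e, hipc]
    ring
  have hsq : ∀ a, (slice (tt C c) a * slice (tt C c) a).trace =
      ∑ i, ∑ j, slice (tt C c) a i j ^ 2 := by
    intro a
    unfold Matrix.trace
    simp only [Matrix.diag_apply, Matrix.mul_apply]
    refine Finset.sum_congr rfl fun i _ => Finset.sum_congr rfl fun j _ => ?_
    rw [slice_symm a j i, sq]
  have s5 : ∑ a, (3 * (slice (tt C c) a * X a + (A2 C c a - κ • 1)).trace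
      + 3 * ((slice (tt C c) a + X a) * (slice (tt C c) a + X a)).trace)
      = -(12 * n) + 3 * δ * n := by
    have e1 : ∀ a, 3 * (slice (tt C c) a * X a + (A2 C c a - κ • 1)).trace
      + 3 * ((slice (tt C c) a + X a) * (slice (tt C c) a + X a)).trace =
      -(3 / 4) * ∑ i, ∑ j, slice (tt C c) a i j ^ 2 + 3 * (A2 C c a).trace - 3 * κ * n := by
      intro a
      have e2 : slice (tt C c) a + X a = (1 / 2 : ℝ) • slice (tt C c) a := by
        rw [hX]
        ext i j
        simp only [Matrix.add_apply, Matrix.smul_apply, smul_eq_mul]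
        ring
      have e3 : slice (tt C c) a * X a = (-(1 / 2) : ℝ) • (slice (tt C c) a * slice (tt C c) a) := by
        rw [hX, Matrix.mul_smul]
      rw [e2, e3, Matrix.smul_mul, Matrix.mul_smul, smul_smul, Matrix.trace_add, Matrix.trace_sub,
        Matrix.trace_smul, Matrix.trace_smul, Matrix.trace_smul, hsq a, Matrix.trace_one,
        Fintype.card_fin, smul_eq_mul, smul_eq_mul, smul_eq_mul]
      ring
    simp only [e1]
    rw [Finset.sum_sub_distrib, Finset.sum_add_distrib, ← Finset.mul_sum, ← Finset.mul_sum,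
      ← ip_slice, ip_eq hn hP hZ h hI hD]
    have e2 : ∑ a, (A2 C c a).trace = - n := by
      unfold Matrix.trace
      simp only [Matrix.diag_apply]
      rw [Finset.sum_comm]
      simp only [sum_A2 hn h]
      simp [kd]
    rw [e2]
    simp only [Finset.sum_const, Finset.card_univ, Fintype.card_fin, nsmul_eq_mul]
    rw [hκ]
    field_simp
    ring
  rw [Finset.sum_sub_distrib, ← Finset.mul_sum, s5, Finset.sum_add_distrib, Finset.sum_add_distrib,
    Finset.sum_add_distrib, ← Finset.mul_sum, ← Finset.mul_sum, ← Finset.mul_sum, s1, s2, s3,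
    s4] at h7
  linarith

/-- block E2 in the normalised form -/
theorem slices_commute (hn : 0 < n) (hP : LimP n) (hZ : LimZ n) (h : Adm C c α b) (hI : Iso C c)
    (hD : DD (limDens 0 c C) = 0) (i j : Fin n) :
    slice (tt C c) i * slice (tt C c) j = slice (tt C c) j * slice (tt C c) i :=
  commute_of_key tt_symm (hM hn hP hZ h hI hD) (kk C c) (fun a => (kk_symm a).1)
    (fun a => (kk_symm a).2) (key hn hP hZ h hI hD) i j

lemma Norm.iso (hN : Norm C c) : Iso C c where
  m1 := hN.mean
  m2 := by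
    intro i j
    have h1 := congrFun (congrFun hN.cov i) j
    unfold covF at h1
    rw [of_apply, hN.mean i, zero_mul, sub_zero, Matrix.one_apply] at h1
    exact h1

theorem stmtE2 : StmtE2 := by
  intro n hP hZ C c a b h hN i j
  rw [T3_zero hN.iso]
  exact slices_commute (Fin.pos i) hP hZ h hN.iso hN.dd i j

theorem stmtE2Z : StmtE2Z := by
  intro n hZ C c a b h hN
  rcases Nat.eq_zero_or_pos n with rfl | hn
  · simp
  · rw [T3_zero hN.iso]
    refine (four_n_le hn hZ h hN.iso hN.dd).trans (le_of_eq ?_)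
    unfold slice
    simp only [of_apply]

end Vale.Agent.P254.Eq657
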